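import Vale.Agent.P254.H721.Tab

/-!
P254, (SP_0) line, SP-CERT (helper721): reflected checker for inequalities `0 ≤ P (x, mm x, r x)` on
compact intervals, `P` a polynomial with rational constants and interval parameters.

Arithmetic: centre-radius fixed-point intervals (scale `2^30`) and first-order automatic
differentiation along `m' = (x + m) m - 1`, `r' = 1 - m r`; on a cell `[k/64, (k+j)/64]` the value is
bounded by the value at the left end plus the cell bound of the derivative.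

`cert_sound` : `chk e P j i n = true → 0 ≤ e.ev ρ x (mm x) (r x)` for all
`x ∈ [(i - 384)/64, (i + j n - 384)/64]`.
-/

namespace Vale.Agent.P254.H721.Cert

open Real Set

/-- polynomial expressions in `x`, `m = mm x`, `r = r x`, rational constants `n / d` and parameters -/
inductive Pe where
  | x : Pe
  | m : Pe
  | r : Pe
  | c : ℤ → ℕ → Pe
  | p : ℕ → Pe
  | add : Pe → Pe → Pe
  | neg : Pe → Pe
  | mul : Pe → Pe → Pe

instance : Add Pe := ⟨Pe.add⟩
instance : Neg Pe := ⟨Pe.neg⟩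
instance : Mul Pe := ⟨Pe.mul⟩
instance : Sub Pe := ⟨fun a b => Pe.add a (Pe.neg b)⟩

/-- value -/
noncomputable def Pe.ev (ρ : ℕ → ℝ) (x m r : ℝ) : Pe → ℝ
  | .x => x
  | .m => m
  | .r => r
  | .c n d => (n : ℝ) / d
  | .p i => ρ i
  | .add a b => a.ev ρ x m r + b.ev ρ x m r
  | .neg a => -a.ev ρ x m r
  | .mul a b => a.ev ρ x m r * b.ev ρ x m r

/-- derivative along `m' = (x + m) m - 1`, `r' = 1 - m r` -/
noncomputable def Pe.dv (ρ : ℕ → ℝ) (x m r : ℝ) : Pe → ℝ
  | .x => 1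
  | .m => (x + m) * m + -1
  | .r => 1 + -(m * r)
  | .c _ _ => 0
  | .p _ => 0
  | .add a b => a.dv ρ x m r + b.dv ρ x m r
  | .neg a => -a.dv ρ x m r
  | .mul a b => a.dv ρ x m r * b.ev ρ x m r + a.ev ρ x m r * b.dv ρ x m r

theorem Pe.hasDerivAt (ρ : ℕ → ℝ) (x : ℝ) :
    ∀ e : Pe, HasDerivAt (fun y => e.ev ρ y (mm y) (H721.r y)) (e.dv ρ x (mm x) (H721.r x)) x
  | .x => hasDerivAt_id x
  | .m => by
    refine (hasDerivAt_mm x).congr_deriv ?_
    simp only [Pe.dv]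
    rw [vv_eq]
    have := g_eq x
    linear_combination (-mm x) * this
  | .r => by
    refine (hasDerivAt_r x).congr_deriv ?_
    simp only [Pe.dv]
    rw [r1_eq]
    ring
  | .c n d => hasDerivAt_const x ((n : ℝ) / d)
  | .p i => hasDerivAt_const x (ρ i)
  | .add a b => (a.hasDerivAt ρ x).add (b.hasDerivAt ρ x)
  | .neg a => (a.hasDerivAt ρ x).neg
  | .mul a b => (a.hasDerivAt ρ x).mul (b.hasDerivAt ρ x)

/-! ### fixed-point intervals in centre-radius form -/

/-- `|2^30 y - c| ≤ ρ` for `I = (c, ρ)` -/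
def InI (I : ℤ × ℕ) (y : ℝ) : Prop := |y * 1073741824 - (I.1 : ℝ)| ≤ (I.2 : ℝ)

def addI (a b : ℤ × ℕ) : ℤ × ℕ := (Int.add a.1 b.1, Nat.add a.2 b.2)
def negI (a : ℤ × ℕ) : ℤ × ℕ := (Int.neg a.1, a.2)
def mulI (a b : ℤ × ℕ) : ℤ × ℕ :=
  (Int.ediv (Int.mul a.1 b.1) 1073741824,
   Nat.add (Nat.div (Nat.add (Nat.mul a.1.natAbs b.2) (Nat.mul (Nat.add b.1.natAbs b.2) a.2)) 1073741824) 2)

theorem addI_sound {I J : ℤ × ℕ} {y z : ℝ} (h1 : InI I y) (h2 : InI J z) : InI (addI I J) (y + z) := by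
  unfold InI at *
  have e1 : (addI I J).1 = I.1 + J.1 := rfl
  have e2 : (addI I J).2 = I.2 + J.2 := rfl
  rw [e1, e2]
  push_cast
  calc |(y + z) * 1073741824 - ((I.1 : ℝ) + J.1)|
      = |(y * 1073741824 - I.1) + (z * 1073741824 - J.1)| := by ring_nf
    _ ≤ _ := (abs_add_le _ _).trans (add_le_add h1 h2)

theorem negI_sound {I : ℤ × ℕ} {y : ℝ} (h1 : InI I y) : InI (negI I) (-y) := by
  unfold InI at *
  have e1 : (negI I).1 = -I.1 := rfl
  have e2 : (negI I).2 = I.2 := rfl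
  rw [e1, e2]
  push_cast
  calc |-y * 1073741824 - -(I.1 : ℝ)| = |-(y * 1073741824 - I.1)| := by ring_nf
    _ = |y * 1073741824 - I.1| := abs_neg _
    _ ≤ _ := h1

theorem mulI_sound {I J : ℤ × ℕ} {y z : ℝ} (h1 : InI I y) (h2 : InI J z) : InI (mulI I J) (y * z) := by
  unfold InI at *
  have e1 : (mulI I J).1 = (I.1 * J.1) / 1073741824 := rfl
  have e2 : (mulI I J).2 = (I.1.natAbs * J.2 + (J.1.natAbs + J.2) * I.2) / 1073741824 + 2 := rfl
  set c := (mulI I J).1 with hc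
  set ρ := (mulI I J).2 with hρ
  have c1 : c * 1073741824 ≤ I.1 * J.1 := by
    generalize I.1 * J.1 = w at e1
    omega
  have c2 : I.1 * J.1 < c * 1073741824 + 1073741824 := by
    generalize I.1 * J.1 = w at e1
    omega
  have r1 : I.1.natAbs * J.2 + (J.1.natAbs + J.2) * I.2 < (ρ - 1) * 1073741824 := by
    generalize I.1.natAbs * J.2 + (J.1.natAbs + J.2) * I.2 = w at e2
    omega
  have hρ1 : 1 ≤ ρ := by
    rw [e2]
    exact Nat.le_add_left 1 _ |>.trans (Nat.add_le_add_left (by norm_num) _)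
  have c1r : (c : ℝ) * 1073741824 ≤ I.1 * J.1 := by exact_mod_cast c1
  have c2r : (I.1 : ℝ) * J.1 < c * 1073741824 + 1073741824 := by exact_mod_cast c2
  have r1r : |(I.1 : ℝ)| * J.2 + (|(J.1 : ℝ)| + J.2) * I.2 < ((ρ : ℝ) - 1) * 1073741824 := by
    have := (Nat.cast_lt (α := ℝ)).2 r1
    rw [Nat.cast_mul, Nat.cast_sub hρ1] at this
    push_cast at this
    rw [Nat.cast_natAbs, Nat.cast_natAbs] at this
    push_cast at this
    exact this
  have hz : |z * 1073741824| ≤ |(J.1 : ℝ)| + J.2 := by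
    calc |z * 1073741824| = |(z * 1073741824 - J.1) + J.1| := by ring_nf
      _ ≤ |z * 1073741824 - J.1| + |(J.1 : ℝ)| := abs_add_le _ _
      _ ≤ _ := by linarith
  have key : |(y * z * 1073741824 - c) * 1073741824| ≤ ρ * 1073741824 := by
    have e : (y * z * 1073741824 - c) * 1073741824 = (y * 1073741824 - I.1) * (z * 1073741824)
        + I.1 * (z * 1073741824 - J.1) + (I.1 * J.1 - c * 1073741824) := by ring
    rw [e]
    have t1 : |(y * 1073741824 - I.1) * (z * 1073741824)| ≤ I.2 * (|(J.1 : ℝ)| + J.2) := by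
      rw [abs_mul]
      exact mul_le_mul h1 hz (abs_nonneg _) (by positivity)
    have t2 : |(I.1 : ℝ) * (z * 1073741824 - J.1)| ≤ |(I.1 : ℝ)| * J.2 := by
      rw [abs_mul]
      exact mul_le_mul_of_nonneg_left h2 (abs_nonneg _)
    have t3 : |(I.1 : ℝ) * J.1 - c * 1073741824| ≤ 1073741824 := by
      rw [abs_le]
      constructor <;> linarith
    calc _ ≤ |(y * 1073741824 - I.1) * (z * 1073741824) + I.1 * (z * 1073741824 - J.1)|
          + |(I.1 : ℝ) * J.1 - c * 1073741824| := abs_add_le _ _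
      _ ≤ |(y * 1073741824 - I.1) * (z * 1073741824)| + |(I.1 : ℝ) * (z * 1073741824 - J.1)|
          + |(I.1 : ℝ) * J.1 - c * 1073741824| := by linarith [abs_add_le ((y * 1073741824 - I.1) * (z * 1073741824)) (I.1 * (z * 1073741824 - J.1))]
      _ ≤ _ := by nlinarith
  rw [abs_mul, abs_of_pos (by norm_num : (0 : ℝ) < 1073741824)] at key
  exact le_of_mul_le_mul_right key (by norm_num)

/-- constants -/
def constI (n : ℤ) (d : ℕ) : ℤ × ℕ := (Int.ediv (Int.mul n 1073741824) (Int.ofNat d), 1)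

theorem constI_sound (n : ℤ) (d : ℕ) : InI (constI n d) ((n : ℝ) / d) := by
  unfold InI
  have e1 : (constI n d).1 = (n * 1073741824) / (d : ℤ) := rfl
  have e2 : (constI n d).2 = 1 := rfl
  rw [e1, e2]
  rcases Nat.eq_zero_or_pos d with h0 | hd
  · subst h0
    simp
  · have hd' : (0 : ℤ) < (d : ℤ) := by exact_mod_cast hd
    have hdr : (0 : ℝ) < (d : ℝ) := by exact_mod_cast hd
    set q := (n * 1073741824) / (d : ℤ) with hq
    have l : q * (d : ℤ) ≤ n * 1073741824 := Int.ediv_mul_le _ hd'.ne'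
    have u : n * 1073741824 < q * (d : ℤ) + d :=
      (Int.lt_ediv_add_one_mul_self _ hd').trans_eq (by ring)
    have lr : (q : ℝ) * (d : ℝ) ≤ n * 1073741824 := by exact_mod_cast l
    have ur : (n : ℝ) * 1073741824 < q * (d : ℝ) + d := by exact_mod_cast u
    have e3 : (n : ℝ) / d * 1073741824 = n * 1073741824 / d := by ring
    rw [e3, abs_le]
    push_cast
    constructor
    · have : (q : ℝ) ≤ n * 1073741824 / d := by rwa [le_div_iff₀ hdr]
      linarith
    · have : (n : ℝ) * 1073741824 / d ≤ q + 1 := by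
        rw [div_le_iff₀ hdr]
        linarith
      linarith

/-- from a lower and an upper bound -/
def ofLU (lo hi : ℕ) : ℤ × ℕ :=
  (Int.ofNat (Nat.div (Nat.add lo hi) 2), Nat.add (Nat.div (Nat.sub hi lo) 2) 1)

theorem ofLU_sound {lo hi : ℕ} {y : ℝ} (h1 : (lo : ℝ) ≤ y * 1073741824) (h2 : y * 1073741824 ≤ hi) :
    InI (ofLU lo hi) y := by
  unfold InI
  have e1 : (ofLU lo hi).1 = ((lo + hi) / 2 : ℕ) := rfl
  have e2 : (ofLU lo hi).2 = (hi - lo) / 2 + 1 := rfl
  rw [e1, e2]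
  have hle : lo ≤ hi := by exact_mod_cast h1.trans h2
  have i1 : 2 * ((lo + hi) / 2) ≤ lo + hi := by omega
  have i2 : lo + hi ≤ 2 * ((lo + hi) / 2) + 1 := by omega
  have i3 : hi ≤ lo + 2 * ((hi - lo) / 2) + 1 := by omega
  have j1 : (2 : ℝ) * (((lo + hi) / 2 : ℕ) : ℝ) ≤ lo + hi := by exact_mod_cast i1
  have j2 : ((lo : ℝ) + hi) ≤ 2 * (((lo + hi) / 2 : ℕ) : ℝ) + 1 := by exact_mod_cast i2
  have j3 : (hi : ℝ) ≤ lo + 2 * (((hi - lo) / 2 : ℕ) : ℝ) + 1 := by exact_mod_cast i3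
  rw [Int.cast_natCast, abs_le]
  push_cast
  constructor <;> linarith

/-! ### jets -/

/-- value at the left end, value on the cell, derivative on the cell -/
structure Jet where
  pt : ℤ × ℕ
  ce : ℤ × ℕ
  de : ℤ × ℕ

/-- environment of parameters -/
def EnvOK (P : List (ℤ × ℕ)) (ρ : ℕ → ℝ) : Prop := ∀ i, InI (P.getD i (0, 0)) (ρ i)

def Pe.jet (P : List (ℤ × ℕ)) (X M R : Jet) : Pe → Jet
  | .x => X
  | .m => M
  | .r => R
  | .c n d => ⟨constI n d, constI n d, (0, 0)⟩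
  | .p i => ⟨P.getD i (0, 0), P.getD i (0, 0), (0, 0)⟩
  | .add a b => ⟨addI (a.jet P X M R).pt (b.jet P X M R).pt, addI (a.jet P X M R).ce (b.jet P X M R).ce,
      addI (a.jet P X M R).de (b.jet P X M R).de⟩
  | .neg a => ⟨negI (a.jet P X M R).pt, negI (a.jet P X M R).ce, negI (a.jet P X M R).de⟩
  | .mul a b => ⟨mulI (a.jet P X M R).pt (b.jet P X M R).pt, mulI (a.jet P X M R).ce (b.jet P X M R).ce,
      addI (mulI (a.jet P X M R).de (b.jet P X M R).ce) (mulI (a.jet P X M R).ce (b.jet P X M R).de)⟩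

theorem jet_pt {P : List (ℤ × ℕ)} {ρ : ℕ → ℝ} (hP : EnvOK P ρ) {X M R : Jet} {x m r : ℝ}
    (hX : InI X.pt x) (hM : InI M.pt m) (hR : InI R.pt r) :
    ∀ e : Pe, InI (e.jet P X M R).pt (e.ev ρ x m r)
  | .x => hX
  | .m => hM
  | .r => hR
  | .c n d => constI_sound n d
  | .p i => hP i
  | .add a b => addI_sound (jet_pt hP hX hM hR a) (jet_pt hP hX hM hR b)
  | .neg a => negI_sound (jet_pt hP hX hM hR a)
  | .mul a b => mulI_sound (jet_pt hP hX hM hR a) (jet_pt hP hX hM hR b)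

theorem jet_ce {P : List (ℤ × ℕ)} {ρ : ℕ → ℝ} (hP : EnvOK P ρ) {X M R : Jet} {x m r : ℝ}
    (hX : InI X.ce x) (hM : InI M.ce m) (hR : InI R.ce r) :
    ∀ e : Pe, InI (e.jet P X M R).ce (e.ev ρ x m r)
  | .x => hX
  | .m => hM
  | .r => hR
  | .c n d => constI_sound n d
  | .p i => hP i
  | .add a b => addI_sound (jet_ce hP hX hM hR a) (jet_ce hP hX hM hR b)
  | .neg a => negI_sound (jet_ce hP hX hM hR a)
  | .mul a b => mulI_sound (jet_ce hP hX hM hR a) (jet_ce hP hX hM hR b)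

theorem zeroI_sound : InI (0, 0) 0 := by simp [InI]

theorem jet_de {P : List (ℤ × ℕ)} {ρ : ℕ → ℝ} (hP : EnvOK P ρ) {X M R : Jet} {x m r : ℝ}
    (hX : InI X.ce x) (hM : InI M.ce m) (hR : InI R.ce r)
    (hX' : InI X.de 1) (hM' : InI M.de ((x + m) * m + -1)) (hR' : InI R.de (1 + -(m * r))) :
    ∀ e : Pe, InI (e.jet P X M R).de (e.dv ρ x m r)
  | .x => hX'
  | .m => hM'
  | .r => hR'
  | .c _ _ => zeroI_sound
  | .p _ => zeroI_sound
  | .add a b => addI_sound (jet_de hP hX hM hR hX' hM' hR' a) (jet_de hP hX hM hR hX' hM' hR' b)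
  | .neg a => negI_sound (jet_de hP hX hM hR hX' hM' hR' a)
  | .mul a b => addI_sound
      (mulI_sound (jet_de hP hX hM hR hX' hM' hR' a) (jet_ce hP hX hM hR b))
      (mulI_sound (jet_ce hP hX hM hR a) (jet_de hP hX hM hR hX' hM' hR' b))

def oneI : ℤ × ℕ := (1073741824, 0)
def moneI : ℤ × ℕ := (-1073741824, 0)

theorem oneI_sound : InI oneI 1 := by norm_num [InI, oneI]
theorem moneI_sound : InI moneI (-1) := by norm_num [InI, moneI]

/-- the jets of `x`, `m`, `r` on the cell `[k/64, (k + j)/64]`, `a`, `b` the rows of the end points -/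
def jX (j : ℕ) (k : ℤ) : Jet :=
  ⟨(Int.mul k 16777216, 0), (Int.add (Int.mul k 16777216) (Int.ofNat (Nat.mul j 8388608)), Nat.mul j 8388608), oneI⟩
def jM (j : ℕ) (k : ℤ) (a b : Row) : Jet :=
  ⟨ofLU a.1 a.2.1, ofLU b.1 a.2.1,
    addI (mulI (addI (jX j k).ce (ofLU b.1 a.2.1)) (ofLU b.1 a.2.1)) moneI⟩
def jR (a b : Row) : Jet :=
  ⟨ofLU a.2.2.1 a.2.2.2, ofLU a.2.2.1 b.2.2.2,
    addI oneI (negI (mulI (ofLU b.1 a.2.1) (ofLU a.2.2.1 b.2.2.2)))⟩

def cell (e : Pe) (P : List (ℤ × ℕ)) (j : ℕ) (k : ℤ) (a b : Row) : Bool :=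
  decide (0 ≤ 64 * ((e.jet P (jX j k) (jM j k a b) (jR a b)).pt.1 - (e.jet P (jX j k) (jM j k a b) (jR a b)).pt.2) +
    j * min 0 ((e.jet P (jX j k) (jM j k a b) (jR a b)).de.1 - (e.jet P (jX j k) (jM j k a b) (jR a b)).de.2))

theorem cell_sound {e : Pe} {P : List (ℤ × ℕ)} {ρ : ℕ → ℝ} (hP : EnvOK P ρ) {j : ℕ} {k : ℤ} {a b : Row}
    (ha : EnM k a) (hb : EnM (k + j) b) (hra : EnR k a) (hrb : EnR (k + j) b)
    (h : cell e P j k a b = true) {x : ℝ} (h1 : (k : ℝ) / 64 ≤ x) (h2 : x ≤ ((k + j : ℤ) : ℝ) / 64) :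
    0 ≤ e.ev ρ x (mm x) (H721.r x) := by
  unfold cell at h
  simp only [decide_eq_true_eq] at h
  set J := e.jet P (jX j k) (jM j k a b) (jR a b) with hJ
  have hXp : InI (jX j k).pt ((k : ℝ) / 64) := by
    unfold InI
    have e1 : (jX j k).pt.1 = k * 16777216 := rfl
    have e2 : (jX j k).pt.2 = 0 := rfl
    rw [e1, e2]
    push_cast
    rw [show (k : ℝ) / 64 * 1073741824 - k * 16777216 = 0 by ring]
    simp
  have hMp : InI (jM j k a b).pt (mm ((k : ℝ) / 64)) := ofLU_sound ha.1 ha.2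
  have hRp : InI (jR a b).pt (H721.r ((k : ℝ) / 64)) := ofLU_sound hra.1 hra.2
  have hpt : InI J.pt (e.ev ρ ((k : ℝ) / 64) (mm ((k : ℝ) / 64)) (H721.r ((k : ℝ) / 64))) :=
    jet_pt hP hXp hMp hRp e
  have hdx : ∀ y, (k : ℝ) / 64 ≤ y → y ≤ ((k + j : ℤ) : ℝ) / 64 → InI J.de (e.dv ρ y (mm y) (H721.r y)) := by
    intro y hy1 hy2
    have hX : InI (jX j k).ce y := by
      unfold InI
      have e1 : (jX j k).ce.1 = k * 16777216 + ((j * 8388608 : ℕ) : ℤ) := rfl
      have e2 : (jX j k).ce.2 = j * 8388608 := rfl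
      rw [e1, e2, abs_le]
      push_cast at hy2 ⊢
      constructor <;> linarith
    have hM : InI (jM j k a b).ce (mm y) := by
      have m1 := mm_anti.antitone hy1
      have m2 := mm_anti.antitone hy2
      apply ofLU_sound
      · linarith [hb.1]
      · linarith [ha.2]
    have hR : InI (jR a b).ce (H721.r y) := by
      have m1 := r_mono.monotone hy1
      have m2 := r_mono.monotone hy2
      apply ofLU_sound
      · linarith [hra.1]
      · linarith [hrb.2]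
    apply jet_de hP hX hM hR oneI_sound
    · exact addI_sound (mulI_sound (addI_sound hX hM) hM) moneI_sound
    · exact addI_sound oneI_sound (negI_sound (mulI_sound hM hR))
  set f := fun y => e.ev ρ y (mm y) (H721.r y) with hf
  have hreal : 0 ≤ 64 * ((J.pt.1 : ℝ) - J.pt.2) + j * min 0 ((J.de.1 : ℝ) - J.de.2) := by
    exact_mod_cast h
  have hfp : (J.pt.1 : ℝ) - J.pt.2 ≤ f ((k : ℝ) / 64) * 1073741824 := by
    have := (abs_le.1 hpt).1
    linarith
  set δ := min 0 ((J.de.1 : ℝ) - J.de.2) with hδ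
  have hneg : δ ≤ 0 := min_le_left _ _
  have hmv : δ / 1073741824 * (x - (k : ℝ) / 64) ≤ f x - f ((k : ℝ) / 64) := by
    rcases h1.eq_or_lt with h0 | h0
    · rw [← h0]
      simp
    · obtain ⟨y, hy, hy'⟩ := exists_hasDerivAt_eq_slope f (fun y => e.dv ρ y (mm y) (H721.r y)) h0
        (fun y _ => (Pe.hasDerivAt ρ y e).continuousAt.continuousWithinAt)
        (fun y _ => Pe.hasDerivAt ρ y e)
      have hy2 := (abs_le.1 (hdx y hy.1.le (hy.2.le.trans h2))).1
      have hpos : 0 < x - (k : ℝ) / 64 := sub_pos.2 h0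
      have : f x - f ((k : ℝ) / 64) = e.dv ρ y (mm y) (H721.r y) * (x - (k : ℝ) / 64) := by
        rw [hy', div_mul_cancel₀ _ hpos.ne']
      rw [this]
      apply mul_le_mul_of_nonneg_right _ hpos.le
      rw [div_le_iff₀ (by norm_num)]
      exact (min_le_right _ _).trans (by linarith)
  have hx : x - (k : ℝ) / 64 ≤ j / 64 := by
    push_cast at h2
    linarith
  have h6 : δ / 1073741824 * (j / 64) ≤ δ / 1073741824 * (x - (k : ℝ) / 64) := by
    apply mul_le_mul_of_nonpos_left hx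
    apply div_nonpos_of_nonpos_of_nonneg hneg (by norm_num)
  show 0 ≤ f x
  have h7 : (0 : ℝ) ≤ ((J.pt.1 : ℝ) - J.pt.2) / 1073741824 + δ / 1073741824 * (j / 64) := by
    have : ((J.pt.1 : ℝ) - J.pt.2) / 1073741824 + δ / 1073741824 * (j / 64)
      = (64 * ((J.pt.1 : ℝ) - J.pt.2) + j * δ) / (1073741824 * 64) := by ring
    rw [this]
    positivity
  have h8 : ((J.pt.1 : ℝ) - J.pt.2) / 1073741824 ≤ f ((k : ℝ) / 64) := by
    rw [div_le_iff₀ (by norm_num)]
    exact hfp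
  linarith

/-! ### lists of cells -/

/-- `n` cells of length `j/64` starting at `k/64`; the list holds the rows from `k` on -/
def chkL (e : Pe) (P : List (ℤ × ℕ)) (j : ℕ) : ℕ → ℤ → List Row → Bool
  | 0, _, _ => true
  | n + 1, k, a :: l =>
    match (a :: l).drop j with
    | [] => false
    | b :: l' => cell e P j k a b && chkL e P j n (k + j) (b :: l')
  | _ + 1, _, [] => false

theorem enML_drop : ∀ (i : ℕ) (l : List Row) (k : ℤ), EnML k l → EnML (k + i) (l.drop i)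
  | 0, l, k, h => by simpa using h
  | i + 1, [], k, _ => by simp [EnML]
  | i + 1, a :: l, k, h => by
    have := enML_drop i l (k + 1) h.2
    simp only [List.drop_succ_cons]
    convert this using 1
    push_cast
    ring

theorem enRL_drop : ∀ (i : ℕ) (l : List Row) (k : ℤ), EnRL k l → EnRL (k + i) (l.drop i)
  | 0, l, k, h => by simpa using h
  | i + 1, [], k, _ => by simp [EnRL]
  | i + 1, a :: l, k, h => by
    have := enRL_drop i l (k + 1) h.2
    simp only [List.drop_succ_cons]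
    convert this using 1
    push_cast
    ring

theorem chkL_sound {e : Pe} {P : List (ℤ × ℕ)} {ρ : ℕ → ℝ} (hP : EnvOK P ρ) {j : ℕ} :
    ∀ (n : ℕ) (k : ℤ) (l : List Row), EnML k l → EnRL k l → chkL e P j n k l = true → ∀ x : ℝ,
      (k : ℝ) / 64 ≤ x → x < ((k : ℝ) + j * n) / 64 → 0 ≤ e.ev ρ x (mm x) (H721.r x)
  | 0, k, _, _, _, _, x, h1, h2 => by
    simp only [Nat.cast_zero, mul_zero, add_zero] at h2
    exfalso
    linarith
  | n + 1, k, [], _, _, h, x, h1, h2 => by simp [chkL] at h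
  | n + 1, k, a :: l, hM, hR, h, x, h1, h2 => by
    have hM' := enML_drop j _ _ hM
    have hR' := enRL_drop j _ _ hR
    unfold chkL at h
    generalize (a :: l).drop j = l2 at h hM' hR'
    match l2, h, hM', hR' with
    | [], h, _, _ => simp at h
    | b :: l', h, hM', hR' =>
      simp only [Bool.and_eq_true] at h
      rcases le_or_gt x (((k + j : ℤ) : ℝ) / 64) with h3 | h3
      · exact cell_sound hP hM.1 hM'.1 hR.1 hR'.1 h.1 h1 h3
      · refine chkL_sound hP n (k + j) (b :: l') hM' hR' h.2 x h3.le ?_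
        push_cast at h2 ⊢
        linarith

/-- the check on the `n` cells of length `j/64` starting at ` (i - 384) / 64` -/
def chk (e : Pe) (P : List (ℤ × ℕ)) (j i n : ℕ) : Bool :=
  chkL e P j n (-384 + i) (tabv.drop i)

/-- **soundness of the checker** (half-open interval) -/
theorem cert_sound' {e : Pe} {P : List (ℤ × ℕ)} {ρ : ℕ → ℝ} (hP : EnvOK P ρ) {j i n : ℕ}
    (h : chk e P j i n = true) {x : ℝ} (h1 : ((i : ℝ) - 384) / 64 ≤ x)
    (h2 : x < ((i : ℝ) + j * n - 384) / 64) : 0 ≤ e.ev ρ x (mm x) (H721.r x) := by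
  refine chkL_sound hP n _ _ (enML_drop i _ _ enM_tab) (enRL_drop i _ _ enR_tab) h x ?_ ?_
  · push_cast
    linarith
  · push_cast
    linarith

theorem envOK_nil : EnvOK [] (fun _ => 0) := by
  intro i
  simp [InI]

theorem closed_of_halfopen {e : Pe} {ρ : ℕ → ℝ} {a b : ℝ} (hab : a < b)
    (h : ∀ x, a ≤ x → x < b → 0 ≤ e.ev ρ x (mm x) (H721.r x)) {x : ℝ} (h1 : a ≤ x) (h2 : x ≤ b) :
    0 ≤ e.ev ρ x (mm x) (H721.r x) := by
  rcases h2.lt_or_eq with h3 | h3
  · exact h x h1 h3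
  · have hcont : Continuous (fun y => e.ev ρ y (mm y) (H721.r y)) :=
      continuous_iff_continuousAt.2 fun y => (Pe.hasDerivAt ρ y e).continuousAt
    have hmem : x ∈ closure (Ico a x) := by
      rw [closure_Ico (by rw [h3]; exact hab.ne)]
      exact ⟨h1, le_rfl⟩
    have hsub : Ico a x ⊆ (fun y => e.ev ρ y (mm y) (H721.r y)) ⁻¹' (Ici 0) := by
      intro y hy
      exact h y hy.1 (hy.2.trans_eq h3)
    have h5 := hcont.closure_preimage_subset (Ici (0 : ℝ)) (closure_mono hsub hmem)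
    rw [closure_Ici] at h5
    exact h5

/-- **soundness of the checker** on the closed interval -/
theorem cert_sound {e : Pe} {P : List (ℤ × ℕ)} {ρ : ℕ → ℝ} (hP : EnvOK P ρ) {j i n : ℕ}
    (hn : 0 < j * n) (h : chk e P j i n = true) {x : ℝ} (h1 : ((i : ℝ) - 384) / 64 ≤ x)
    (h2 : x ≤ ((i : ℝ) + j * n - 384) / 64) : 0 ≤ e.ev ρ x (mm x) (H721.r x) := by
  refine closed_of_halfopen ?_ (fun y hy hy' => cert_sound' hP h hy hy') h1 h2
  have : (0 : ℝ) < j * n := by exact_mod_cast hn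
  linarith

/-- several consecutive segments ` (j, n)` : `n` cells of length `j/64` -/
def chkP (e : Pe) (P : List (ℤ × ℕ)) : ℕ → List (ℕ × ℕ) → Bool
  | _, [] => true
  | i, s :: l => chk e P s.1 i s.2 && chkP e P (i + s.1 * s.2) l

/-- total length (in units of `1/64`) -/
def tot : List (ℕ × ℕ) → ℕ
  | [] => 0
  | s :: l => s.1 * s.2 + tot l

theorem chkP_sound {e : Pe} {P : List (ℤ × ℕ)} {ρ : ℕ → ℝ} (hP : EnvOK P ρ) :
    ∀ (l : List (ℕ × ℕ)) (i : ℕ), chkP e P i l = true → ∀ x : ℝ, ((i : ℝ) - 384) / 64 ≤ x →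
      x < ((i : ℝ) + tot l - 384) / 64 → 0 ≤ e.ev ρ x (mm x) (H721.r x)
  | [], i, _, x, h1, h2 => by
    simp only [tot, Nat.cast_zero, add_zero] at h2
    exfalso
    linarith
  | s :: l, i, h, x, h1, h2 => by
    simp only [chkP, Bool.and_eq_true] at h
    rcases lt_or_ge x (((i : ℝ) + s.1 * s.2 - 384) / 64) with h3 | h3
    · exact cert_sound' hP h.1 h1 h3
    · refine chkP_sound hP l (i + s.1 * s.2) h.2 x ?_ ?_
      · push_cast
        exact h3
      · simp only [tot] at h2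
        push_cast at h2 ⊢
        linarith

/-- **THE CERTIFIER.** `i0 = 384 + 64 a`, `tot l = 64 (b - a)`; then `0 ≤ e` on `[a, b]`. -/
theorem cert {e : Pe} {P : List (ℤ × ℕ)} {ρ : ℕ → ℝ} (hP : EnvOK P ρ) (i : ℕ) (l : List (ℕ × ℕ))
    (hn : 0 < tot l) (h : chkP e P i l = true) {x : ℝ} (h1 : ((i : ℝ) - 384) / 64 ≤ x)
    (h2 : x ≤ ((i : ℝ) + tot l - 384) / 64) : 0 ≤ e.ev ρ x (mm x) (H721.r x) := by
  refine closed_of_halfopen ?_ (fun y hy hy' => chkP_sound hP l i h y hy hy') h1 h2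
  have : (0 : ℝ) < tot l := by exact_mod_cast hn
  linarith

/-! ### named expressions -/

/-- `L = x + m` -/
def eL : Pe := .x + .m
/-- `v = 1 - L m` -/
def eV : Pe := .c 1 1 - eL * .m
/-- `r' = 1 - m r` -/
def eR1 : Pe := .c 1 1 - .m * .r
/-- `r'' = r (v + m²) - m` -/
def eR2 : Pe := .r * (eV + .m * .m) - .m
/-- `t = r L` -/
def eT : Pe := .r * eL

section
variable (ρ : ℕ → ℝ) (x m r : ℝ) (a b : Pe)
theorem ev_add : (a + b).ev ρ x m r = a.ev ρ x m r + b.ev ρ x m r := rfl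
theorem ev_mul : (a * b).ev ρ x m r = a.ev ρ x m r * b.ev ρ x m r := rfl
theorem ev_neg : (-a).ev ρ x m r = -a.ev ρ x m r := rfl
theorem ev_sub : (a - b).ev ρ x m r = a.ev ρ x m r - b.ev ρ x m r := (sub_eq_add_neg _ _).symm
theorem ev_x : Pe.x.ev ρ x m r = x := rfl
theorem ev_m : Pe.m.ev ρ x m r = m := rfl
theorem ev_r : Pe.r.ev ρ x m r = r := rfl
theorem ev_p (i : ℕ) : (Pe.p i).ev ρ x m r = ρ i := rfl
theorem ev_c (n : ℤ) (d : ℕ) : (Pe.c n d).ev ρ x m r = (n : ℝ) / d := rfl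
end

theorem ev_eL (ρ : ℕ → ℝ) (g : ℝ) : eL.ev ρ g (mm g) (r g) = L g := by
  simp only [eL, ev_add, ev_x, ev_m]
  linarith [g_eq g]

theorem ev_eV (ρ : ℕ → ℝ) (g : ℝ) : eV.ev ρ g (mm g) (r g) = vv g := by
  simp only [eV, ev_sub, ev_mul, ev_m, ev_c, ev_eL]
  rw [vv_eq]
  norm_num

theorem ev_eR1 (ρ : ℕ → ℝ) (g : ℝ) : eR1.ev ρ g (mm g) (r g) = r1 g := by
  simp only [eR1, ev_sub, ev_mul, ev_m, ev_c, ev_r]
  rw [r1_eq]
  push_cast
  ring

theorem ev_eR2 (ρ : ℕ → ℝ) (g : ℝ) : eR2.ev ρ g (mm g) (r g) = r2 g := by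
  simp only [eR2, ev_sub, ev_add, ev_mul, ev_m, ev_r, ev_eV]
  rw [r2_eq]
  ring

theorem ev_eT (ρ : ℕ → ℝ) (g : ℝ) : eT.ev ρ g (mm g) (r g) = t g := by
  simp only [eT, ev_mul, ev_r, ev_eL]
  exact r_mul_L g

/-- example: `r'' ≤ 9/100` on `[-5, 10]` -/
theorem r2_le_aux {g : ℝ} (h1 : -5 ≤ g) (h2 : g ≤ 10) : r2 g ≤ 9 / 100 := by
  have h := cert (e := .c 9 100 - eR2) envOK_nil 64
    [(2, 106), (1, 59), (2, 19), (4, 21), (8, 70), (4, 1), (2, 1), (1, 1)] (by decide) (by decide +kernel)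
    (x := g) (by norm_num; linarith) (by norm_num [tot]; linarith)
  simp only [ev_sub, ev_c, ev_eR2] at h
  push_cast at h
  linarith

end Vale.Agent.P254.H721.Cert
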