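import Vale.Agent.P254.H721.Cert

/-!
P254, (SP_0) line, SP-CERT (helper721): second order version of the checker of `Cert.lean`
(same expressions, second order automatic differentiation, error of a cell of length `h` is `O(h^3)`
for smooth data).  Main theorem: `cert2`.
-/

namespace Vale.Agent.P254.H721.Cert

open Real Set

/-- second derivative along `m' = (x + m) m - 1`, `r' = 1 - m r` -/
noncomputable def Pe.d2 (ρ : ℕ → ℝ) (x m r : ℝ) : Pe → ℝ
  | .x => 0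
  | .m => (1 + ((x + m) * m + -1)) * m + (x + m) * ((x + m) * m + -1)
  | .r => -(((x + m) * m + -1) * r + m * (1 + -(m * r)))
  | .c _ _ => 0
  | .p _ => 0
  | .add a b => a.d2 ρ x m r + b.d2 ρ x m r
  | .neg a => -a.d2 ρ x m r
  | .mul a b => (a.d2 ρ x m r * b.ev ρ x m r + a.dv ρ x m r * b.dv ρ x m r)
      + (a.dv ρ x m r * b.dv ρ x m r + a.ev ρ x m r * b.d2 ρ x m r)

theorem mm_ode (x : ℝ) : HasDerivAt mm ((x + mm x) * mm x + -1) x := by
  refine (hasDerivAt_mm x).congr_deriv ?_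
  rw [vv_eq]
  have := g_eq x
  linear_combination (-mm x) * this

theorem r_ode (x : ℝ) : HasDerivAt H721.r (1 + -(mm x * H721.r x)) x := by
  refine (hasDerivAt_r x).congr_deriv ?_
  rw [r1_eq]
  ring

theorem Pe.hasDerivAt2 (ρ : ℕ → ℝ) (x : ℝ) :
    ∀ e : Pe, HasDerivAt (fun y => e.dv ρ y (mm y) (H721.r y)) (e.d2 ρ x (mm x) (H721.r x)) x
  | .x => hasDerivAt_const x 1
  | .m => by
    have h := (((hasDerivAt_id x).add (mm_ode x)).mul (mm_ode x)).add_const (-1)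
    refine h.congr_deriv ?_
    simp only [id, Pe.d2, Pi.add_apply]
  | .r => by
    have h := (((mm_ode x).mul (r_ode x)).neg).const_add 1
    refine h.congr_deriv ?_
    simp only [Pe.d2]
  | .c _ _ => hasDerivAt_const x 0
  | .p _ => hasDerivAt_const x 0
  | .add a b => (a.hasDerivAt2 ρ x).add (b.hasDerivAt2 ρ x)
  | .neg a => (a.hasDerivAt2 ρ x).neg
  | .mul a b => ((a.hasDerivAt2 ρ x).mul (b.hasDerivAt ρ x)).add ((a.hasDerivAt ρ x).mul (b.hasDerivAt2 ρ x))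

/-- value and derivative at the left end, value and two derivatives on the cell -/
structure Jet2 where
  p0 : ℤ × ℕ
  p1 : ℤ × ℕ
  c0 : ℤ × ℕ
  c1 : ℤ × ℕ
  c2 : ℤ × ℕ

def Pe.jet2 (P : List (ℤ × ℕ)) (X M R : Jet2) : Pe → Jet2
  | .x => X
  | .m => M
  | .r => R
  | .c n d => ⟨constI n d, (0, 0), constI n d, (0, 0), (0, 0)⟩
  | .p i => ⟨P.getD i (0, 0), (0, 0), P.getD i (0, 0), (0, 0), (0, 0)⟩
  | .add a b => ⟨addI (a.jet2 P X M R).p0 (b.jet2 P X M R).p0, addI (a.jet2 P X M R).p1 (b.jet2 P X M R).p1,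
      addI (a.jet2 P X M R).c0 (b.jet2 P X M R).c0, addI (a.jet2 P X M R).c1 (b.jet2 P X M R).c1,
      addI (a.jet2 P X M R).c2 (b.jet2 P X M R).c2⟩
  | .neg a => ⟨negI (a.jet2 P X M R).p0, negI (a.jet2 P X M R).p1, negI (a.jet2 P X M R).c0,
      negI (a.jet2 P X M R).c1, negI (a.jet2 P X M R).c2⟩
  | .mul a b => ⟨mulI (a.jet2 P X M R).p0 (b.jet2 P X M R).p0,
      addI (mulI (a.jet2 P X M R).p1 (b.jet2 P X M R).p0) (mulI (a.jet2 P X M R).p0 (b.jet2 P X M R).p1),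
      mulI (a.jet2 P X M R).c0 (b.jet2 P X M R).c0,
      addI (mulI (a.jet2 P X M R).c1 (b.jet2 P X M R).c0) (mulI (a.jet2 P X M R).c0 (b.jet2 P X M R).c1),
      addI (addI (mulI (a.jet2 P X M R).c2 (b.jet2 P X M R).c0) (mulI (a.jet2 P X M R).c1 (b.jet2 P X M R).c1))
        (addI (mulI (a.jet2 P X M R).c1 (b.jet2 P X M R).c1) (mulI (a.jet2 P X M R).c0 (b.jet2 P X M R).c2))⟩

section
variable {P : List (ℤ × ℕ)} {ρ : ℕ → ℝ} (hP : EnvOK P ρ) {X M R : Jet2} {x m r : ℝ}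
include hP

theorem jet2_p0 (hX : InI X.p0 x) (hM : InI M.p0 m) (hR : InI R.p0 r) :
    ∀ e : Pe, InI (e.jet2 P X M R).p0 (e.ev ρ x m r)
  | .x => hX
  | .m => hM
  | .r => hR
  | .c n d => constI_sound n d
  | .p i => hP i
  | .add a b => addI_sound (jet2_p0 hX hM hR a) (jet2_p0 hX hM hR b)
  | .neg a => negI_sound (jet2_p0 hX hM hR a)
  | .mul a b => mulI_sound (jet2_p0 hX hM hR a) (jet2_p0 hX hM hR b)

theorem jet2_p1 (hX : InI X.p0 x) (hM : InI M.p0 m) (hR : InI R.p0 r)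
    (hX' : InI X.p1 1) (hM' : InI M.p1 ((x + m) * m + -1)) (hR' : InI R.p1 (1 + -(m * r))) :
    ∀ e : Pe, InI (e.jet2 P X M R).p1 (e.dv ρ x m r)
  | .x => hX'
  | .m => hM'
  | .r => hR'
  | .c _ _ => zeroI_sound
  | .p _ => zeroI_sound
  | .add a b => addI_sound (jet2_p1 hX hM hR hX' hM' hR' a) (jet2_p1 hX hM hR hX' hM' hR' b)
  | .neg a => negI_sound (jet2_p1 hX hM hR hX' hM' hR' a)
  | .mul a b => addI_sound
      (mulI_sound (jet2_p1 hX hM hR hX' hM' hR' a) (jet2_p0 hP hX hM hR b))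
      (mulI_sound (jet2_p0 hP hX hM hR a) (jet2_p1 hX hM hR hX' hM' hR' b))

theorem jet2_c0 (hX : InI X.c0 x) (hM : InI M.c0 m) (hR : InI R.c0 r) :
    ∀ e : Pe, InI (e.jet2 P X M R).c0 (e.ev ρ x m r)
  | .x => hX
  | .m => hM
  | .r => hR
  | .c n d => constI_sound n d
  | .p i => hP i
  | .add a b => addI_sound (jet2_c0 hX hM hR a) (jet2_c0 hX hM hR b)
  | .neg a => negI_sound (jet2_c0 hX hM hR a)
  | .mul a b => mulI_sound (jet2_c0 hX hM hR a) (jet2_c0 hX hM hR b)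

theorem jet2_c1 (hX : InI X.c0 x) (hM : InI M.c0 m) (hR : InI R.c0 r)
    (hX' : InI X.c1 1) (hM' : InI M.c1 ((x + m) * m + -1)) (hR' : InI R.c1 (1 + -(m * r))) :
    ∀ e : Pe, InI (e.jet2 P X M R).c1 (e.dv ρ x m r)
  | .x => hX'
  | .m => hM'
  | .r => hR'
  | .c _ _ => zeroI_sound
  | .p _ => zeroI_sound
  | .add a b => addI_sound (jet2_c1 hX hM hR hX' hM' hR' a) (jet2_c1 hX hM hR hX' hM' hR' b)
  | .neg a => negI_sound (jet2_c1 hX hM hR hX' hM' hR' a)
  | .mul a b => addI_sound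
      (mulI_sound (jet2_c1 hX hM hR hX' hM' hR' a) (jet2_c0 hP hX hM hR b))
      (mulI_sound (jet2_c0 hP hX hM hR a) (jet2_c1 hX hM hR hX' hM' hR' b))

theorem jet2_c2 (hX : InI X.c0 x) (hM : InI M.c0 m) (hR : InI R.c0 r)
    (hX' : InI X.c1 1) (hM' : InI M.c1 ((x + m) * m + -1)) (hR' : InI R.c1 (1 + -(m * r)))
    (hX2 : InI X.c2 0)
    (hM2 : InI M.c2 ((1 + ((x + m) * m + -1)) * m + (x + m) * ((x + m) * m + -1)))
    (hR2 : InI R.c2 (-(((x + m) * m + -1) * r + m * (1 + -(m * r))))) :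
    ∀ e : Pe, InI (e.jet2 P X M R).c2 (e.d2 ρ x m r)
  | .x => hX2
  | .m => hM2
  | .r => hR2
  | .c _ _ => zeroI_sound
  | .p _ => zeroI_sound
  | .add a b => addI_sound (jet2_c2 hX hM hR hX' hM' hR' hX2 hM2 hR2 a)
      (jet2_c2 hX hM hR hX' hM' hR' hX2 hM2 hR2 b)
  | .neg a => negI_sound (jet2_c2 hX hM hR hX' hM' hR' hX2 hM2 hR2 a)
  | .mul a b => addI_sound
      (addI_sound
        (mulI_sound (jet2_c2 hX hM hR hX' hM' hR' hX2 hM2 hR2 a) (jet2_c0 hP hX hM hR b))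
        (mulI_sound (jet2_c1 hP hX hM hR hX' hM' hR' a) (jet2_c1 hP hX hM hR hX' hM' hR' b)))
      (addI_sound
        (mulI_sound (jet2_c1 hP hX hM hR hX' hM' hR' a) (jet2_c1 hP hX hM hR hX' hM' hR' b))
        (mulI_sound (jet2_c0 hP hX hM hR a) (jet2_c2 hX hM hR hX' hM' hR' hX2 hM2 hR2 b)))

end

/-- `m'` from `x`, `m` -/
def m1I (x m : ℤ × ℕ) : ℤ × ℕ := addI (mulI (addI x m) m) moneI
/-- `r'` from `m`, `r` -/
def r1I (m r : ℤ × ℕ) : ℤ × ℕ := addI oneI (negI (mulI m r))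
/-- `m''` -/
def m2I (x m : ℤ × ℕ) : ℤ × ℕ := addI (mulI (addI oneI (m1I x m)) m) (mulI (addI x m) (m1I x m))
/-- `r''` -/
def r2I (x m r : ℤ × ℕ) : ℤ × ℕ := negI (addI (mulI (m1I x m) r) (mulI m (r1I m r)))

theorem m1I_sound {X M : ℤ × ℕ} {x m : ℝ} (hX : InI X x) (hM : InI M m) :
    InI (m1I X M) ((x + m) * m + -1) := addI_sound (mulI_sound (addI_sound hX hM) hM) moneI_sound
theorem r1I_sound {M R : ℤ × ℕ} {m r : ℝ} (hM : InI M m) (hR : InI R r) :
    InI (r1I M R) (1 + -(m * r)) := addI_sound oneI_sound (negI_sound (mulI_sound hM hR))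
theorem m2I_sound {X M : ℤ × ℕ} {x m : ℝ} (hX : InI X x) (hM : InI M m) :
    InI (m2I X M) ((1 + ((x + m) * m + -1)) * m + (x + m) * ((x + m) * m + -1)) :=
  addI_sound (mulI_sound (addI_sound oneI_sound (m1I_sound hX hM)) hM)
    (mulI_sound (addI_sound hX hM) (m1I_sound hX hM))
theorem r2I_sound {X M R : ℤ × ℕ} {x m r : ℝ} (hX : InI X x) (hM : InI M m) (hR : InI R r) :
    InI (r2I X M R) (-(((x + m) * m + -1) * r + m * (1 + -(m * r)))) :=
  negI_sound (addI_sound (mulI_sound (m1I_sound hX hM) hR) (mulI_sound hM (r1I_sound hM hR)))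

def xp (k : ℤ) : ℤ × ℕ := (Int.mul k 16777216, 0)
def xc (j : ℕ) (k : ℤ) : ℤ × ℕ := (Int.add (Int.mul k 16777216) (Int.ofNat (Nat.mul j 8388608)), Nat.mul j 8388608)
def mp (a : Row) : ℤ × ℕ := ofLU a.1 a.2.1
def mc (a b : Row) : ℤ × ℕ := ofLU b.1 a.2.1
def rp (a : Row) : ℤ × ℕ := ofLU a.2.2.1 a.2.2.2
def rc (a b : Row) : ℤ × ℕ := ofLU a.2.2.1 b.2.2.2

/-- the 2-jets of `x`, `m`, `r` on the cell `[k/64, (k + j)/64]`, `a`, `b` the rows of the end points -/
def kX (j : ℕ) (k : ℤ) : Jet2 := ⟨xp k, oneI, xc j k, oneI, (0, 0)⟩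
def kM (j : ℕ) (k : ℤ) (a b : Row) : Jet2 :=
  ⟨mp a, m1I (xp k) (mp a), mc a b, m1I (xc j k) (mc a b), m2I (xc j k) (mc a b)⟩
def kR (j : ℕ) (k : ℤ) (a b : Row) : Jet2 :=
  ⟨rp a, r1I (mp a) (rp a), rc a b, r1I (mc a b) (rc a b), r2I (xc j k) (mc a b) (rc a b)⟩

/-- `p + q s + d s² / 2 ≥ 0` for `0 ≤ s ≤ j / 64`, lower bounds `p`, `q`, `d` (scaled) -/
def lowq (p q d j : ℤ) : ℤ := 32768 * p - max d 0 * (j * j) + 4 * j * min 0 (128 * q + j * d)

def cell2 (e : Pe) (P : List (ℤ × ℕ)) (j : ℕ) (k : ℤ) (a b : Row) : Bool :=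
  decide (0 ≤ lowq
    ((e.jet2 P (kX j k) (kM j k a b) (kR j k a b)).p0.1 - (e.jet2 P (kX j k) (kM j k a b) (kR j k a b)).p0.2)
    ((e.jet2 P (kX j k) (kM j k a b) (kR j k a b)).p1.1 - (e.jet2 P (kX j k) (kM j k a b) (kR j k a b)).p1.2)
    ((e.jet2 P (kX j k) (kM j k a b) (kR j k a b)).c2.1 - (e.jet2 P (kX j k) (kM j k a b) (kR j k a b)).c2.2)
    (j : ℤ))

theorem lowq_le {p q d h s : ℝ} (h1 : 0 ≤ s) (h2 : s ≤ h) :
    p - max d 0 * h ^ 2 / 8 + h * min 0 (q + d * h / 2) ≤ p + q * s + d * s ^ 2 / 2 := by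
  have h3 : h * min 0 (q + d * h / 2) ≤ s * (q + d * h / 2) := by
    have a1 : min 0 (q + d * h / 2) ≤ 0 := min_le_left _ _
    have a2 : min 0 (q + d * h / 2) ≤ q + d * h / 2 := min_le_right _ _
    nlinarith
  rcases le_total d 0 with hd | hd
  · rw [max_eq_right hd]
    nlinarith [mul_nonneg h1 (sub_nonneg.2 h2)]
  · rw [max_eq_left hd]
    nlinarith [mul_nonneg hd (sq_nonneg (s - h / 2))]

/-- second order lower bound -/
theorem taylor_lower {f f1 f2 : ℝ → ℝ} (h0 : ∀ x, HasDerivAt f (f1 x) x) (h1 : ∀ x, HasDerivAt f1 (f2 x) x)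
    {a b q d : ℝ} (hq : q ≤ f1 a) (hd : ∀ y, a ≤ y → y ≤ b → d ≤ f2 y) {x : ℝ} (hx1 : a ≤ x) (hx2 : x ≤ b) :
    f a + q * (x - a) + d * (x - a) ^ 2 / 2 ≤ f x := by
  have e1 : ∀ y, a ≤ y → y ≤ b → q + d * (y - a) ≤ f1 y := by
    intro y hy1 hy2
    have hm : MonotoneOn (fun z => f1 z - d * (z - a)) (Icc a b) := by
      apply monotoneOn_of_deriv_nonneg (convex_Icc a b)
      · intro z _
        exact ((h1 z).continuousAt.sub (by fun_prop)).continuousWithinAt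
      · intro z _
        exact ((h1 z).differentiableAt.sub (by fun_prop)).differentiableWithinAt
      · intro z hz
        rw [interior_Icc] at hz
        have : HasDerivAt (fun z => f1 z - d * (z - a)) (f2 z - d * 1) z :=
          (h1 z).sub (((hasDerivAt_id z).sub_const a).const_mul d)
        rw [this.deriv]
        linarith [hd z hz.1.le hz.2.le]
    have := hm ⟨le_rfl, hy1.trans hy2⟩ ⟨hy1, hy2⟩ hy1
    simp only [sub_self, mul_zero, sub_zero] at this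
    linarith
  have hm : MonotoneOn (fun z => f z - q * (z - a) - d * (z - a) ^ 2 / 2) (Icc a b) := by
    have hder : ∀ z, HasDerivAt (fun z => f z - q * (z - a) - d * (z - a) ^ 2 / 2) (f1 z - q - d * (z - a)) z := by
      intro z
      have a1 := (((hasDerivAt_id z).sub_const a).const_mul q)
      have a2 := ((((hasDerivAt_id z).sub_const a).pow 2).const_mul d).div_const 2
      refine (((h0 z).sub a1).sub a2).congr_deriv ?_
      simp only [id]
      push_cast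
      ring
    apply monotoneOn_of_deriv_nonneg (convex_Icc a b)
    · intro z _
      exact (hder z).continuousAt.continuousWithinAt
    · intro z _
      exact (hder z).differentiableAt.differentiableWithinAt
    · intro z hz
      rw [interior_Icc] at hz
      rw [(hder z).deriv]
      linarith [e1 z hz.1.le hz.2.le]
  have := hm ⟨le_rfl, hx1.trans hx2⟩ ⟨hx1, hx2⟩ hx1
  simp only [sub_self, mul_zero, sub_zero, ne_eq, OfNat.ofNat_ne_zero, not_false_eq_true, zero_pow, zero_div] at this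
  linarith

theorem cell2_sound {e : Pe} {P : List (ℤ × ℕ)} {ρ : ℕ → ℝ} (hP : EnvOK P ρ) {j : ℕ} {k : ℤ} {a b : Row}
    (ha : EnM k a) (hb : EnM (k + j) b) (hra : EnR k a) (hrb : EnR (k + j) b)
    (h : cell2 e P j k a b = true) {x : ℝ} (h1 : (k : ℝ) / 64 ≤ x) (h2 : x ≤ ((k + j : ℤ) : ℝ) / 64) :
    0 ≤ e.ev ρ x (mm x) (H721.r x) := by
  unfold cell2 lowq at h
  simp only [decide_eq_true_eq] at h
  set J := e.jet2 P (kX j k) (kM j k a b) (kR j k a b) with hJ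
  have hXp : InI (xp k) ((k : ℝ) / 64) := by
    unfold InI
    have e1 : (xp k).1 = k * 16777216 := rfl
    have e2 : (xp k).2 = 0 := rfl
    rw [e1, e2]
    push_cast
    rw [show (k : ℝ) / 64 * 1073741824 - k * 16777216 = 0 by ring]
    simp
  have hMp : InI (mp a) (mm ((k : ℝ) / 64)) := ofLU_sound ha.1 ha.2
  have hRp : InI (rp a) (H721.r ((k : ℝ) / 64)) := ofLU_sound hra.1 hra.2
  have hp0 : InI J.p0 (e.ev ρ ((k : ℝ) / 64) (mm ((k : ℝ) / 64)) (H721.r ((k : ℝ) / 64))) :=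
    jet2_p0 hP (X := kX j k) (M := kM j k a b) (R := kR j k a b) hXp hMp hRp e
  have hp1 : InI J.p1 (e.dv ρ ((k : ℝ) / 64) (mm ((k : ℝ) / 64)) (H721.r ((k : ℝ) / 64))) :=
    jet2_p1 hP (X := kX j k) (M := kM j k a b) (R := kR j k a b) hXp hMp hRp oneI_sound
      (m1I_sound hXp hMp) (r1I_sound hMp hRp) e
  have hc2 : ∀ y, (k : ℝ) / 64 ≤ y → y ≤ ((k + j : ℤ) : ℝ) / 64 → InI J.c2 (e.d2 ρ y (mm y) (H721.r y)) := by
    intro y hy1 hy2
    have hX : InI (xc j k) y := by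
      unfold InI
      have e1 : (xc j k).1 = k * 16777216 + ((j * 8388608 : ℕ) : ℤ) := rfl
      have e2 : (xc j k).2 = j * 8388608 := rfl
      rw [e1, e2, abs_le]
      push_cast at hy2 ⊢
      constructor <;> linarith
    have hM : InI (mc a b) (mm y) := by
      have m1 := mm_anti.antitone hy1
      have m2 := mm_anti.antitone hy2
      apply ofLU_sound
      · linarith [hb.1]
      · linarith [ha.2]
    have hR : InI (rc a b) (H721.r y) := by
      have m1 := r_mono.monotone hy1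
      have m2 := r_mono.monotone hy2
      apply ofLU_sound
      · linarith [hra.1]
      · linarith [hrb.2]
    exact jet2_c2 hP (X := kX j k) (M := kM j k a b) (R := kR j k a b) hX hM hR oneI_sound
      (m1I_sound hX hM) (r1I_sound hM hR) zeroI_sound (m2I_sound hX hM) (r2I_sound hX hM hR) e
  set f := fun y => e.ev ρ y (mm y) (H721.r y) with hf
  have hreal : 0 ≤ 32768 * ((J.p0.1 : ℝ) - J.p0.2) - max ((J.c2.1 : ℝ) - J.c2.2) 0 * (j * j)
      + 4 * j * min 0 (128 * ((J.p1.1 : ℝ) - J.p1.2) + j * ((J.c2.1 : ℝ) - J.c2.2)) := by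
    exact_mod_cast h
  have hfp : (J.p0.1 : ℝ) - J.p0.2 ≤ f ((k : ℝ) / 64) * 1073741824 := by
    have := (abs_le.1 hp0).1
    linarith
  have hfq : ((J.p1.1 : ℝ) - J.p1.2) / 1073741824 ≤ e.dv ρ ((k : ℝ) / 64) (mm ((k : ℝ) / 64)) (H721.r ((k : ℝ) / 64)) := by
    rw [div_le_iff₀ (by norm_num)]
    have := (abs_le.1 hp1).1
    linarith
  have hfd : ∀ y, (k : ℝ) / 64 ≤ y → y ≤ ((k + j : ℤ) : ℝ) / 64 →
      ((J.c2.1 : ℝ) - J.c2.2) / 1073741824 ≤ e.d2 ρ y (mm y) (H721.r y) := by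
    intro y hy1 hy2
    rw [div_le_iff₀ (by norm_num)]
    have := (abs_le.1 (hc2 y hy1 hy2)).1
    linarith
  have ht := taylor_lower (f := f) (fun y => Pe.hasDerivAt ρ y e) (fun y => Pe.hasDerivAt2 ρ y e) hfq hfd h1 h2
  have hs1 : 0 ≤ x - (k : ℝ) / 64 := sub_nonneg.2 h1
  have hs2 : x - (k : ℝ) / 64 ≤ (j : ℝ) / 64 := by
    push_cast at h2
    linarith
  generalize (J.p0.1 : ℝ) - J.p0.2 = p at *
  generalize (J.p1.1 : ℝ) - J.p1.2 = q at *
  generalize (J.c2.1 : ℝ) - J.c2.2 = d at *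
  have hl := lowq_le (p := p / 1073741824) (q := q / 1073741824) (d := d / 1073741824) hs1 hs2
  have e1 : max (d / 1073741824) 0 = max d 0 / 1073741824 := by
    rw [← max_div_div_right (by norm_num : (0 : ℝ) ≤ 1073741824), zero_div]
  have e2 : min 0 (q / 1073741824 + d / 1073741824 * ((j : ℝ) / 64) / 2) = min 0 (128 * q + j * d) / (128 * 1073741824) := by
    rw [← min_div_div_right (by norm_num : (0 : ℝ) ≤ 128 * 1073741824), zero_div]
    congr 1
    ring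
  rw [e1, e2] at hl
  have h8 : p / 1073741824 ≤ f ((k : ℝ) / 64) := by
    rw [div_le_iff₀ (by norm_num)]
    exact hfp
  have h9 : 0 ≤ p / 1073741824 - max d 0 / 1073741824 * ((j : ℝ) / 64) ^ 2 / 8
      + (j : ℝ) / 64 * (min 0 (128 * q + j * d) / (128 * 1073741824)) := by
    have : p / 1073741824 - max d 0 / 1073741824 * ((j : ℝ) / 64) ^ 2 / 8
      + (j : ℝ) / 64 * (min 0 (128 * q + j * d) / (128 * 1073741824))
      = (32768 * p - max d 0 * (j * j) + 4 * j * min 0 (128 * q + j * d)) / (32768 * 1073741824) := by ring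
    rw [this]
    positivity
  show 0 ≤ f x
  linarith

def chkL2 (e : Pe) (P : List (ℤ × ℕ)) (j : ℕ) : ℕ → ℤ → List Row → Bool
  | 0, _, _ => true
  | n + 1, k, a :: l =>
    match (a :: l).drop j with
    | [] => false
    | b :: l' => cell2 e P j k a b && chkL2 e P j n (k + j) (b :: l')
  | _ + 1, _, [] => false

theorem chkL2_sound {e : Pe} {P : List (ℤ × ℕ)} {ρ : ℕ → ℝ} (hP : EnvOK P ρ) {j : ℕ} :
    ∀ (n : ℕ) (k : ℤ) (l : List Row), EnML k l → EnRL k l → chkL2 e P j n k l = true → ∀ x : ℝ,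
      (k : ℝ) / 64 ≤ x → x < ((k : ℝ) + j * n) / 64 → 0 ≤ e.ev ρ x (mm x) (H721.r x)
  | 0, k, _, _, _, _, x, h1, h2 => by
    simp only [Nat.cast_zero, mul_zero, add_zero] at h2
    exfalso
    linarith
  | n + 1, k, [], _, _, h, x, h1, h2 => by simp [chkL2] at h
  | n + 1, k, a :: l, hM, hR, h, x, h1, h2 => by
    have hM' := enML_drop j _ _ hM
    have hR' := enRL_drop j _ _ hR
    unfold chkL2 at h
    generalize (a :: l).drop j = l2 at h hM' hR'
    match l2, h, hM', hR' with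
    | [], h, _, _ => simp at h
    | b :: l', h, hM', hR' =>
      simp only [Bool.and_eq_true] at h
      rcases le_or_gt x (((k + j : ℤ) : ℝ) / 64) with h3 | h3
      · exact cell2_sound hP hM.1 hM'.1 hR.1 hR'.1 h.1 h1 h3
      · refine chkL2_sound hP n (k + j) (b :: l') hM' hR' h.2 x h3.le ?_
        push_cast at h2 ⊢
        linarith

def chkP2 (e : Pe) (P : List (ℤ × ℕ)) : ℕ → List (ℕ × ℕ) → Bool
  | _, [] => true
  | i, s :: l => chkL2 e P s.1 s.2 (-384 + i) (tabv.drop i) && chkP2 e P (i + s.1 * s.2) l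

theorem chkP2_sound {e : Pe} {P : List (ℤ × ℕ)} {ρ : ℕ → ℝ} (hP : EnvOK P ρ) :
    ∀ (l : List (ℕ × ℕ)) (i : ℕ), chkP2 e P i l = true → ∀ x : ℝ, ((i : ℝ) - 384) / 64 ≤ x →
      x < ((i : ℝ) + tot l - 384) / 64 → 0 ≤ e.ev ρ x (mm x) (H721.r x)
  | [], i, _, x, h1, h2 => by
    simp only [tot, Nat.cast_zero, add_zero] at h2
    exfalso
    linarith
  | s :: l, i, h, x, h1, h2 => by
    simp only [chkP2, Bool.and_eq_true] at h
    rcases lt_or_ge x (((i : ℝ) + s.1 * s.2 - 384) / 64) with h3 | h3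
    · refine chkL2_sound hP _ _ _ (enML_drop i _ _ enM_tab) (enRL_drop i _ _ enR_tab) h.1 x ?_ ?_
      · push_cast
        linarith
      · push_cast
        linarith
    · refine chkP2_sound hP l (i + s.1 * s.2) h.2 x ?_ ?_
      · push_cast
        exact h3
      · simp only [tot] at h2
        push_cast at h2 ⊢
        linarith

/-- **THE SECOND ORDER CERTIFIER.** `i = 384 + 64 a`, `tot l = 64 (b - a)`; then `0 ≤ e` on `[a, b]`. -/
theorem cert2 {e : Pe} {P : List (ℤ × ℕ)} {ρ : ℕ → ℝ} (hP : EnvOK P ρ) (i : ℕ) (l : List (ℕ × ℕ))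
    (hn : 0 < tot l) (h : chkP2 e P i l = true) {x : ℝ} (h1 : ((i : ℝ) - 384) / 64 ≤ x)
    (h2 : x ≤ ((i : ℝ) + tot l - 384) / 64) : 0 ≤ e.ev ρ x (mm x) (H721.r x) := by
  refine closed_of_halfopen ?_ (fun y hy hy' => chkP2_sound hP l i h y hy hy') h1 h2
  have : (0 : ℝ) < tot l := by exact_mod_cast hn
  linarith

end Vale.Agent.P254.H721.Cert
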