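import Vale.Agent.P254.H721.K8

/-!
P254, (SP_0) line (helper721): `w = r' + r r''`, `θ = r (1 + r')` and their envelopes on the two tails
`g ≤ -5`, `9 ≤ g`; the tools for the inequalities `Φ (g) ≥ ε (1 + g²/20)` of the column certificate.
-/

namespace Vale.Agent.P254.H721

open Real Set Filter Topology

/-- `w = r' + r r''` -/
noncomputable def wf (g : ℝ) : ℝ := r1 g + r g * r2 g

/-- `θ = r (1 + r')` -/
noncomputable def th (g : ℝ) : ℝ := r g * (1 + r1 g)

namespace Cert

def eW : Pe := eR1 + .r * eR2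
def eTh : Pe := .r * (.c 1 1 + eR1)

theorem ev_eW (ρ : ℕ → ℝ) (g : ℝ) : eW.ev ρ g (mm g) (r g) = wf g := by
  simp only [eW, ev_add, ev_mul, ev_r, ev_eR1, ev_eR2, wf]

theorem ev_eTh (ρ : ℕ → ℝ) (g : ℝ) : eTh.ev ρ g (mm g) (r g) = th g := by
  simp only [eTh, ev_add, ev_mul, ev_r, ev_c, ev_eR1, th]
  norm_num

end Cert

theorem wf_pos (g : ℝ) : 0 < wf g := add_pos (r1_pos g) (mul_pos (r_pos g) (r2_pos g))

theorem th_pos (g : ℝ) : 0 < th g := mul_pos (r_pos g) (by linarith [r1_pos g])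

/-! ### left tail -/

theorem r_m5 : r (-5) ≤ 1 / 5 := by
  have h := Cert.cert2 (e := .c 1 5 - .r) Cert.envOK_nil 64 [(1, 1)] (by decide) (by decide +kernel)
    (x := -5) (by norm_num) (by norm_num [Cert.tot])
  simp only [Cert.ev_sub, Cert.ev_c, Cert.ev_r] at h
  push_cast at h
  linarith

theorem r1_left {g : ℝ} (hg : g ≤ -5) : r1 g * 26 ≤ 1 := by
  have h4 := r1_mul_sq_lt g
  have h1 := r1_pos g
  have h5 : 5 ≤ mm g := by
    have := @mm_ge g
    linarith
  have hv := vv_lt_one g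
  have h6 := r1_lt g
  have a1 : r1 g * 25 ≤ r1 g * mm g ^ 2 := mul_le_mul_of_nonneg_left (by nlinarith) h1.le
  have a2 : vv g * (1 - r1 g) ≤ 1 * (1 - r1 g) := mul_le_mul_of_nonneg_right hv.le (by linarith)
  linarith

theorem r_left {g : ℝ} (hg : g ≤ -5) : r g ≤ 1 / 5 := (r_mono.monotone hg).trans r_m5

theorem wf_left {g : ℝ} (hg : g ≤ -5) : wf g ≤ 1 / 20 := by
  have h1 := r1_left hg
  have h2 := r_left hg
  have h3 := r2_le_left g
  have h4 := r1_pos g
  have h5 := r_pos g
  have h6 := r2_pos g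
  unfold wf
  nlinarith

theorem th_left {g : ℝ} (hg : g ≤ -5) : th g ≤ 21 / 100 := by
  have h1 := r1_left hg
  have h2 := r_left hg
  have h4 := r1_pos g
  have h5 := r_pos g
  unfold th
  nlinarith

/-! ### right tail -/

theorem r1_9 : 479 / 1000 ≤ r1 9 := by
  have h := Cert.cert2 (e := Cert.eR1 - .c 479 1000) Cert.envOK_nil 960 [(1, 1)] (by decide) (by decide +kernel)
    (x := 9) (by norm_num) (by norm_num [Cert.tot])
  simp only [Cert.ev_sub, Cert.ev_c, Cert.ev_eR1] at h
  push_cast at h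
  linarith

theorem r_9_le : r 9 ≤ 479 / 100 + 1 / 1000 := by
  have h := Cert.cert2 (e := .c 4791 1000 - .r) Cert.envOK_nil 959 [(1, 1)] (by decide) (by decide +kernel)
    (x := 9) (by norm_num) (by norm_num [Cert.tot])
  simp only [Cert.ev_sub, Cert.ev_c, Cert.ev_r] at h
  push_cast at h
  linarith

theorem le_r_9 : 4789 / 1000 ≤ r 9 := by
  have h := Cert.cert2 (e := .r - .c 4789 1000) Cert.envOK_nil 960 [(1, 1)] (by decide) (by decide +kernel)
    (x := 9) (by norm_num) (by norm_num [Cert.tot])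
  simp only [Cert.ev_sub, Cert.ev_c, Cert.ev_r] at h
  push_cast at h
  linarith

theorem r1_right {g : ℝ} (hg : 9 ≤ g) : 479 / 1000 ≤ r1 g := r1_9.trans (r1_mono.monotone hg)

theorem r_right_le {g : ℝ} (hg : 9 ≤ g) : r g ≤ 4791 / 1000 + (g - 9) / 2 := by
  have hm : MonotoneOn (fun x => (x - 9) / 2 - r x) (Ici 9) := by
    apply monotoneOn_of_deriv_nonneg (convex_Ici 9)
    · exact fun x _ => ((((hasDerivAt_id x).sub_const 9).div_const 2).sub (hasDerivAt_r x)).continuousAt.continuousWithinAt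
    · exact fun x _ => ((((hasDerivAt_id x).sub_const 9).div_const 2).sub (hasDerivAt_r x)).differentiableAt.differentiableWithinAt
    · intro x _
      have := (((hasDerivAt_id x).sub_const 9).div_const 2).sub (hasDerivAt_r x)
      have h2 : deriv (fun x => (x - 9) / 2 - r x) x = 1 / 2 - r1 x := this.deriv
      rw [h2]
      linarith [r1_lt x]
  have h := hm (self_mem_Ici) (mem_Ici.2 hg) hg
  simp only at h
  linarith [r_9_le]

theorem r_right_ge {g : ℝ} (hg : 9 ≤ g) : 4789 / 1000 + 479 / 1000 * (g - 9) ≤ r g := by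
  have hm : MonotoneOn (fun x => r x - 479 / 1000 * (x - 9)) (Ici 9) := by
    apply monotoneOn_of_deriv_nonneg (convex_Ici 9)
    · exact fun x _ => ((hasDerivAt_r x).sub (((hasDerivAt_id x).sub_const 9).const_mul (479 / 1000))).continuousAt.continuousWithinAt
    · exact fun x _ => ((hasDerivAt_r x).sub (((hasDerivAt_id x).sub_const 9).const_mul (479 / 1000))).differentiableAt.differentiableWithinAt
    · intro x hx
      rw [interior_Ici] at hx
      have := (hasDerivAt_r x).sub (((hasDerivAt_id x).sub_const 9).const_mul (479 / 1000))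
      have h2 : deriv (fun x => r x - 479 / 1000 * (x - 9)) x = r1 x - 479 / 1000 * 1 := this.deriv
      rw [h2]
      linarith [r1_right hx.le]
  have h := hm (self_mem_Ici) (mem_Ici.2 hg) hg
  simp only at h
  linarith [le_r_9]

theorem th_right_le {g : ℝ} (hg : 9 ≤ g) : th g ≤ 7187 / 1000 + 3 / 4 * (g - 9) := by
  have h1 := r_right_le hg
  have h2 := r1_lt g
  have h3 := r_pos g
  have h4 := r1_pos g
  unfold th
  nlinarith

theorem th_right_ge {g : ℝ} (hg : 9 ≤ g) : 7082 / 1000 + 708 / 1000 * (g - 9) ≤ th g := by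
  have h1 := r_right_ge hg
  have h2 := r1_right hg
  have h3 := r_pos g
  unfold th
  nlinarith

theorem wf_right_ge {g : ℝ} (hg : 9 ≤ g) : 479 / 1000 ≤ wf g := by
  have h2 := r1_right hg
  have h3 := mul_pos (r_pos g) (r2_pos g)
  unfold wf
  linarith

theorem wf_le' (g : ℝ) : wf g ≤ 1 - 2 * r1 g * (1 - r1 g) := by
  have h1 := r2_le_right g
  have h2 := r_pos g
  have h3 := r1_eq g
  have h4 : r g * r2 g ≤ 2 * (r g * mm g) * (1 / 2 - r1 g) := by
    have := mul_le_mul_of_nonneg_left h1 h2.le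
    linarith
  have h5 : r g * mm g = 1 - r1 g := by linarith
  rw [h5] at h4
  unfold wf
  linarith

theorem wf_right_le {g : ℝ} (hg : 9 ≤ g) : wf g ≤ 501 / 1000 := by
  have h2 := r1_right hg
  have h3 := r1_lt g
  have h4 := wf_le' g
  nlinarith

end Vale.Agent.P254.H721
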