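import Vale.Agent.P254.H721.Cert2

/-!
P254, (SP_0) line (helper721): `8 r''² ≤ r' (1/2 - r')` on the whole line, with the two tail lemmas
`r'' ≤ (6/5) r'` and `r'' ≤ 2 m (1/2 - r')`.
-/

namespace Vale.Agent.P254.H721

open Real Set Filter Topology

/-- `r'' ≤ 2 m (1/2 - r')` -/
theorem r2_le_right (g : ℝ) : r2 g ≤ 2 * mm g * (1 / 2 - r1 g) := by
  have hq := qv_pos g
  have hm := mm_pos g
  have h1 := r1_eq g
  have h2 := r1_lt g
  have e : mm g * r2 g = vv g - r1 g * (vv g + mm g ^ 2) := by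
    rw [r2_eq, h1]
    ring
  have h3 : mm g * r2 g ≤ mm g * (2 * mm g * (1 / 2 - r1 g)) := by
    rw [e]
    nlinarith [mul_pos hq (sub_pos.2 h2)]
  exact le_of_mul_le_mul_left h3 hm

theorem m_ge_of_v {g : ℝ} (h : 18 / 25 ≤ vv g) : 1 / 2 ≤ mm g := by
  have hq := qv_pos g
  have hm := mm_pos g
  nlinarith

/-- `t ≤ L (m + C) / (v + m² + C m)`, `C = 6/5` -/
theorem t_le_left (g : ℝ) : t g < L g * ((mm g + 6 / 5) / (vv g + mm g ^ 2 + 6 / 5 * mm g)) := by
  have h : ∀ x, HasDerivAt (fun x => L x * ((mm x + 6 / 5) / (vv x + mm x ^ 2 + 6 / 5 * mm x)) - t x)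
      (L x * (vv x * (36 / 25 + 6 / 5 * mm x - 2 * vv x) + (mm x + 6 / 5) * (L x * (mm x ^ 2 - vv x)))
        / (vv x + mm x ^ 2 + 6 / 5 * mm x) ^ 2) x := by
    intro x
    have hv := vv_pos x
    have hm := mm_pos x
    have hd : vv x + mm x ^ 2 + 6 / 5 * mm x ≠ 0 := by positivity
    have h1 := (hasDerivAt_mm x).add_const (6 / 5)
    have h2 := ((hasDerivAt_vv x).add ((hasDerivAt_mm x).pow 2)).add ((hasDerivAt_mm x).const_mul (6 / 5))
    have h3 := ((hasDerivAt_L x).mul (h1.div h2 hd)).sub (hasDerivAt_t x)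
    refine h3.congr_deriv ?_
    simp only [Pi.add_apply, Pi.pow_apply, Pi.div_apply]
    field_simp
    push_cast
    ring
  have hpos := pos_of_deriv_pos' h ?_ ?_ g
  · linarith
  · intro x
    have hv := vv_pos x
    have hm := mm_pos x
    have hL := L_pos x
    have hq := qv_pos x
    have h5 : 0 < 36 / 25 + 6 / 5 * mm x - 2 * vv x ∨ 18 / 25 ≤ vv x := by
      by_cases hc : 18 / 25 ≤ vv x
      · exact Or.inr hc
      · left
        push Not at hc
        linarith
    have h6 : 0 < 36 / 25 + 6 / 5 * mm x - 2 * vv x := by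
      rcases h5 with h5 | h5
      · exact h5
      · have := m_ge_of_v h5
        have := vv_lt_one x
        linarith
    positivity
  · have h1 : Tendsto (fun g => L g * ((mm g + 6 / 5) / (vv g + mm g ^ 2 + 6 / 5 * mm g))) atBot (𝓝 0) := by
      apply tendsto_L_mul (C := 1)
      intro g hg
      have hv := vv_pos g
      have hm := one_le_mm hg
      rw [abs_of_pos (by positivity), div_le_one (by positivity)]
      nlinarith
    have := h1.sub tendsto_t_bot
    simpa using this

/-- `r'' ≤ (6/5) r'` -/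
theorem r2_le_left (g : ℝ) : r2 g ≤ 6 / 5 * r1 g := by
  have h := t_le_left g
  have hv := vv_pos g
  have hm := mm_pos g
  have hL := L_pos g
  rw [← r_mul_L, mul_comm (r g), mul_lt_mul_iff_right₀ hL, lt_div_iff₀ (by positivity)] at h
  rw [r2_eq, r1_eq]
  nlinarith

/-- **`8 r''² ≤ r' (1/2 - r')`** -/
theorem key8 (g : ℝ) : 8 * r2 g ^ 2 ≤ r1 g * (1 / 2 - r1 g) := by
  have h0 := r2_pos g
  have h1 := r1_pos g
  have h2 := r1_lt g
  rcases le_total g (-5) with hg | hg
  · have h3 := r2_le_left g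
    have h4 := r1_mul_sq_lt g
    have h5 : 5 ≤ mm g := by
      have := @mm_ge g
      linarith
    have hv := vv_lt_one g
    have h6 : r1 g * 26 ≤ 1 := by nlinarith
    have h7 : r2 g ^ 2 ≤ (6 / 5 * r1 g) ^ 2 := pow_le_pow_left₀ h0.le h3 2
    nlinarith
  · rcases le_total g 3 with hg' | hg'
    · have h := Cert.cert2 (e := Cert.eR1 * (.c 1 2 - Cert.eR1) - .c 8 1 * (Cert.eR2 * Cert.eR2))
        Cert.envOK_nil 64 [(2, 109), (1, 31), (2, 17), (4, 57), (1, 1)] (by decide) (by decide +kernel)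
        (x := g) (by norm_num; linarith) (by norm_num [Cert.tot]; linarith)
      simp only [Cert.ev_sub, Cert.ev_mul, Cert.ev_c, Cert.ev_eR1, Cert.ev_eR2] at h
      push_cast at h
      linarith
    · have h3 := r2_le_right g
      have m3 : mm g ≤ 31 / 100 := by
        have a1 := mm_anti.antitone hg'
        have a2 := vv_pos 3
        have a3 := vv_eq 3
        have a4 := g_eq 3
        have a5 := mm_pos 3
        have a6 : L 3 = 3 + mm 3 := by linarith
        rw [a6] at a3
        nlinarith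
      have h4 : r2 g ≤ 62 / 100 * (1 / 2 - r1 g) := by nlinarith
      have h5 : 2 / 5 ≤ r1 g := by
        have a1 := r1_mono.monotone hg'
        have h := Cert.cert2 (e := Cert.eR1 - .c 2 5)
          Cert.envOK_nil 576 [(1, 1)] (by decide) (by decide +kernel)
          (x := 3) (by norm_num) (by norm_num [Cert.tot])
        simp only [Cert.ev_sub, Cert.ev_c, Cert.ev_eR1] at h
        push_cast at h
        linarith
      have h7 : r2 g ^ 2 ≤ (62 / 100 * (1 / 2 - r1 g)) ^ 2 := pow_le_pow_left₀ h0.le h4 2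
      nlinarith

end Vale.Agent.P254.H721
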