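import Vale.Agent.P254.H721.Tab2

/-!
P254, (SP_0) line, kernel `ktot` (helper721 for helper448): seven one-variable inequalities,
`G = (57/100) w - (93/100) r'²`, `G' = (57/100) w' - (93/50) r' r''`.
-/

namespace Vale.Agent.P254.H721

open Real Set Filter Topology

/-- a function which increases wherever it is positive and tends to zero at `+∞` is nonpositive -/
theorem barrier_top {f f' : ℝ → ℝ} {a : ℝ} (h : ∀ x, HasDerivAt f (f' x) x)
    (hp : ∀ x, a ≤ x → 0 < f x → 0 < f' x) (h0 : Tendsto f atTop (𝓝 0)) {x : ℝ} (hx : a ≤ x) :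
    f x ≤ 0 := by
  by_contra hc
  push Not at hc
  have key : ∀ y, x ≤ y → f x ≤ f y := by
    intro y hy
    by_contra hlt
    push Not at hlt
    have hcont : ContinuousOn f (Icc x y) := fun z _ => (h z).continuousAt.continuousWithinAt
    obtain ⟨z, hz, hmax⟩ := isCompact_Icc.exists_isMaxOn (nonempty_Icc.2 hy) hcont
    have h1 : f x ≤ f z := hmax (left_mem_Icc.2 hy)
    have h2 : z < y := by
      rcases hz.2.lt_or_eq with h3 | h3
      · exact h3
      · rw [h3] at h1
        linarith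
    have h3 : 0 < f' z := hp z (hx.trans hz.1) (hc.trans_le h1)
    have h4 := (hasDerivAt_iff_tendsto_slope.1 (h z)).eventually (lt_mem_nhds h3)
    have h5 : ∀ᶠ w in 𝓝[>] z, 0 < slope f z w :=
      h4.filter_mono (nhdsWithin_mono _ (fun w hw => (ne_of_gt hw : w ≠ z)))
    have h6 : ∀ᶠ w in 𝓝[>] z, w ∈ Ioo z y := Ioo_mem_nhdsGT h2
    obtain ⟨w, hw1, hw2⟩ := (h5.and h6).exists
    have h7 : f w ≤ f z := hmax ⟨hz.1.trans hw2.1.le, hw2.2.le⟩
    rw [slope_def_field] at hw1
    have h8 : 0 < w - z := sub_pos.2 hw2.1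
    have h9 : 0 < f w - f z := by
      by_contra hcon
      push Not at hcon
      exact absurd hw1 (not_lt.2 (div_nonpos_of_nonpos_of_nonneg hcon h8.le))
    linarith
  have h1 : ∀ᶠ y in atTop, f y < f x := h0.eventually (gt_mem_nhds hc)
  obtain ⟨y, hy1, hy2⟩ := (h1.and (eventually_ge_atTop x)).exists
  linarith [key y hy2]

theorem tendsto_mm_top : Tendsto mm atTop (𝓝 0) := by
  have h1 : Tendsto (fun g : ℝ => g⁻¹) atTop (𝓝 0) := tendsto_inv_atTop_zero
  refine tendsto_of_tendsto_of_tendsto_of_le_of_le' tendsto_const_nhds h1 ?_ ?_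
  · exact Eventually.of_forall fun g => (mm_pos g).le
  · filter_upwards [eventually_gt_atTop (0 : ℝ)] with g hg
    have := mm_lt_inv hg
    rw [le_inv_comm₀ (mm_pos g) hg, inv_eq_one_div, le_div_iff₀ (mm_pos g)]
    exact this.le

theorem tendsto_vv_top : Tendsto vv atTop (𝓝 0) := by
  have h1 : Tendsto (fun g => mm g ^ 2) atTop (𝓝 0) := by simpa using tendsto_mm_top.pow 2
  exact tendsto_of_tendsto_of_tendsto_of_le_of_le tendsto_const_nhds h1
    (fun g => (vv_pos g).le) (fun g => (vv_lt_sq g).le)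

/-- `m² - v` and its derivative -/
theorem hasDerivAt_b (g : ℝ) :
    HasDerivAt (fun x => mm x ^ 2 - vv x) (L g * (mm g ^ 2 - vv g) - 2 * mm g * vv g) g := by
  have h := ((hasDerivAt_mm g).pow 2).sub (hasDerivAt_vv g)
  refine h.congr_deriv ?_
  push_cast
  ring

theorem L_eq' (g : ℝ) : L g = (1 - vv g) / mm g := by
  rw [eq_div_iff (mm_pos g).ne', L_mul_mm]

theorem sq_small {g : ℝ} (hg : 7 ≤ g) : mm g ^ 2 ≤ 1 / 49 := by
  have h1 := mm_lt_inv (g := g) (by linarith)
  have h2 := mm_pos g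
  have h3 : mm g ≤ 1 / 7 := by nlinarith
  nlinarith

/-- `m² - v ≤ 2 v²` for `g ≥ 7` -/
theorem b_le {g : ℝ} (hg : 7 ≤ g) : mm g ^ 2 - vv g ≤ 2 * vv g ^ 2 := by
  have h := barrier_top (f := fun x => (mm x ^ 2 - vv x) - 2 * vv x ^ 2)
    (f' := fun x => (L x * (mm x ^ 2 - vv x) - 2 * mm x * vv x)
      - 2 * (2 * vv x * -(L x * (mm x ^ 2 - vv x)))) (a := 7) ?_ ?_ ?_ hg
  · linarith
  · intro x
    have h1 := (hasDerivAt_b x).sub (((hasDerivAt_vv x).pow 2).const_mul 2)
    refine h1.congr_deriv ?_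
    push_cast
    ring
  · intro x hx hpos
    have hv := vv_pos x
    have hm := mm_pos x
    have hs := sq_small hx
    have hlt := vv_lt_sq x
    have hv2 : vv x ≤ 1 / 49 := by linarith
    have hLm := L_mul_mm x
    set b := mm x ^ 2 - vv x with hb
    have hm2 : mm x ^ 2 = b + vv x := by rw [hb]; ring
    have e : mm x * ((L x * b - 2 * mm x * vv x) - 2 * (2 * vv x * -(L x * b)))
        = (1 - vv x) * b * (1 + 4 * vv x) - 2 * (b + vv x) * vv x := by
      rw [← hm2, ← hLm]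
      ring
    have h2 : 0 < mm x * ((L x * b - 2 * mm x * vv x) - 2 * (2 * vv x * -(L x * b))) := by
      rw [e]
      have h3 : (1 - vv x) * b * (1 + 4 * vv x) - 2 * (b + vv x) * vv x
          = (b - 2 * vv x ^ 2) * (1 + vv x - 4 * vv x ^ 2) + 2 * vv x ^ 3 * (1 - 4 * vv x) := by ring
      rw [h3]
      have h4 : 0 < 1 + vv x - 4 * vv x ^ 2 := by nlinarith
      have h5 : 0 < 2 * vv x ^ 3 * (1 - 4 * vv x) := mul_pos (by positivity) (by linarith)
      have h6 := mul_pos (show 0 < b - 2 * vv x ^ 2 by linarith) h4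
      linarith
    exact (mul_pos_iff_of_pos_left hm).1 h2
  · have h1 : Tendsto (fun x => mm x ^ 2 - vv x - 2 * vv x ^ 2) atTop (𝓝 (0 ^ 2 - 0 - 2 * 0 ^ 2)) :=
      ((tendsto_mm_top.pow 2).sub tendsto_vv_top).sub ((tendsto_vv_top.pow 2).const_mul 2)
    simpa using h1

theorem m95 {g : ℝ} (hg : 19 / 2 ≤ g) : mm g ≤ 10306 / 100000 := by
  have h := Cert.cert3 (e := .c 10306 100000 - .m) Cert.envOK_nil 672 [(1, 1)] (by decide) (by decide +kernel)
    (x := 19 / 2) (by norm_num) (by norm_num [Cert.tot])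
  simp only [Cert.ev_sub, Cert.ev_c, Cert.ev_m] at h
  push_cast at h
  linarith [mm_anti.antitone hg]

theorem m975 {g : ℝ} (hg : 39 / 4 ≤ g) : mm g ≤ 1006 / 10000 := by
  have h := Cert.cert3 (e := .c 1006 10000 - .m) Cert.envOK_nil 688 [(1, 1)] (by decide) (by decide +kernel)
    (x := 39 / 4) (by norm_num) (by norm_num [Cert.tot])
  simp only [Cert.ev_sub, Cert.ev_c, Cert.ev_m] at h
  push_cast at h
  linarith [mm_anti.antitone hg]

theorem r1_95 {g : ℝ} (hg : 19 / 2 ≤ g) : 4815 / 10000 ≤ r1 g := by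
  have h := Cert.cert3 (e := Cert.eR1 - .c 4815 10000) Cert.envOK_nil 672 [(1, 1)] (by decide) (by decide +kernel)
    (x := 19 / 2) (by norm_num) (by norm_num [Cert.tot])
  simp only [Cert.ev_sub, Cert.ev_c, Cert.ev_eR1] at h
  push_cast at h
  linarith [r1_mono.monotone hg]

theorem r1_975 {g : ℝ} (hg : 39 / 4 ≤ g) : 4822 / 10000 ≤ r1 g := by
  have h := Cert.cert3 (e := Cert.eR1 - .c 4822 10000) Cert.envOK_nil 688 [(1, 1)] (by decide) (by decide +kernel)
    (x := 39 / 4) (by norm_num) (by norm_num [Cert.tot])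
  simp only [Cert.ev_sub, Cert.ev_c, Cert.ev_eR1] at h
  push_cast at h
  linarith [r1_mono.monotone hg]

theorem r1_105 {g : ℝ} (hg : 21 / 2 ≤ g) : 4840 / 10000 ≤ r1 g := by
  have h := Cert.cert3 (e := Cert.eR1 - .c 4840 10000) Cert.envOK_nil 736 [(1, 1)] (by decide) (by decide +kernel)
    (x := 21 / 2) (by norm_num) (by norm_num [Cert.tot])
  simp only [Cert.ev_sub, Cert.ev_c, Cert.ev_eR1] at h
  push_cast at h
  linarith [r1_mono.monotone hg]

/-- `m² - v ≥ (47/25) m⁴` for `g ≥ 19/2` -/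
theorem b_ge {g : ℝ} (hg : 19 / 2 ≤ g) : 47 / 25 * mm g ^ 4 ≤ mm g ^ 2 - vv g := by
  have h := barrier_top (f := fun x => 47 / 25 * mm x ^ 4 - (mm x ^ 2 - vv x))
    (f' := fun x => 47 / 25 * (4 * mm x ^ 3 * -vv x) - (L x * (mm x ^ 2 - vv x) - 2 * mm x * vv x))
    (a := 19 / 2) ?_ ?_ ?_ hg
  · linarith
  · intro x
    have h1 := (((hasDerivAt_mm x).pow 4).const_mul (47 / 25)).sub (hasDerivAt_b x)
    refine h1.congr_deriv ?_
    push_cast
    ring
  · intro x hx hpos
    have hv := vv_pos x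
    have hm := mm_pos x
    have hm1 := m95 hx
    have hlt := vv_lt_sq x
    have hLm := L_mul_mm x
    have hq := qv_pos x
    have hv1 := vv_lt_one x
    have hs : mm x ^ 2 ≤ 10622 / 1000000 := by nlinarith
    set M := mm x with hM
    set V := vv x with hV
    have h4 : M ^ 4 = M ^ 2 * M ^ 2 := by ring
    -- multiply by `M`
    have e : M * (47 / 25 * (4 * M ^ 3 * -V) - (L x * (M ^ 2 - V) - 2 * M * V))
        = -(188 / 25) * (M ^ 2 * M ^ 2) * V - (1 - V) * (M ^ 2 - V) + 2 * M ^ 2 * V := by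
      rw [← hLm]
      ring
    have h2 : 0 < M * (47 / 25 * (4 * M ^ 3 * -V) - (L x * (M ^ 2 - V) - 2 * M * V)) := by
      rw [e]
      rw [h4] at hpos
      have hm2 : 0 < M ^ 2 := by positivity
      generalize M ^ 2 = S at *
      -- `V > S - κ S²`, `b < κ S²`
      have k1 : S - 47 / 25 * (S * S) < V := by linarith
      have k2 : (1 - V) * (S - V) ≤ (1 - V) * (47 / 25 * (S * S)) :=
        mul_le_mul_of_nonneg_left (by linarith) (by linarith)
      have k3 : 0 < S * S := by positivity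
      have k4 : 2 * S * (S - 47 / 25 * (S * S)) ≤ 2 * S * V := mul_le_mul_of_nonneg_left k1.le (by linarith)
      have k5 : (S * S) * V ≤ (S * S) * S := mul_le_mul_of_nonneg_left hlt.le k3.le
      have k6 : 0 ≤ V * (47 / 25 * (S * S)) := by positivity
      have k7 : 0 < (S * S) * (3 / 25 - 282 / 25 * S) := mul_pos k3 (by linarith)
      nlinarith
    exact (mul_pos_iff_of_pos_left hm).1 h2
  · have h1 : Tendsto (fun x => 47 / 25 * mm x ^ 4 - (mm x ^ 2 - vv x)) atTop (𝓝 (47 / 25 * 0 ^ 4 - (0 ^ 2 - 0))) :=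
      ((tendsto_mm_top.pow 4).const_mul _).sub ((tendsto_mm_top.pow 2).sub tendsto_vv_top)
    simpa using h1

/-! ### the functions -/

/-- `w'` -/
noncomputable def w1f (g : ℝ) : ℝ :=
  2 * r1 g * r2 g + 2 * r g * r1 g * vv g - r g * r g * L g * (mm g ^ 2 - vv g)

/-- `G'` -/
noncomputable def gk (g : ℝ) : ℝ := 57 / 100 * w1f g - 93 / 50 * r1 g * r2 g

/-- `G` -/
noncomputable def Gk (g : ℝ) : ℝ := 57 / 100 * wf g - 93 / 100 * r1 g * r1 g

namespace Cert

def eW1 : Pe := .c 2 1 * eR1 * eR2 + .c 2 1 * .r * eR1 * eV - .r * .r * eL * (.m * .m - eV)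
def eg1 : Pe := .c 57 100 * eW1 - .c 93 50 * eR1 * eR2
def eG : Pe := .c 57 100 * eW - .c 93 100 * eR1 * eR1
def eQ2 : Pe := eR1 * eR2 * (.x + .c 2 1)

theorem ev_eW1 (ρ : ℕ → ℝ) (g : ℝ) : eW1.ev ρ g (mm g) (r g) = w1f g := by
  simp only [eW1, ev_add, ev_mul, ev_sub, ev_m, ev_r, ev_c, ev_eL, ev_eV, ev_eR1, ev_eR2, w1f]
  push_cast
  ring

theorem ev_eg1 (ρ : ℕ → ℝ) (g : ℝ) : eg1.ev ρ g (mm g) (r g) = gk g := by
  simp only [eg1, ev_mul, ev_sub, ev_c, ev_eW1, ev_eR1, ev_eR2, gk]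
  push_cast
  ring

theorem ev_eG (ρ : ℕ → ℝ) (g : ℝ) : eG.ev ρ g (mm g) (r g) = Gk g := by
  simp only [eG, ev_mul, ev_sub, ev_c, ev_eW, ev_eR1, Gk]
  push_cast
  ring

theorem ev_eQ2 (ρ : ℕ → ℝ) (g : ℝ) : eQ2.ev ρ g (mm g) (r g) = r1 g * r2 g * (g + 2) := by
  simp only [eQ2, ev_mul, ev_add, ev_x, ev_c, ev_eR1, ev_eR2]
  push_cast
  ring

end Cert

theorem mm_mul_w1f (g : ℝ) : mm g * w1f g
    = (2 * vv g ^ 2 - (1 - vv g) * (mm g ^ 2 - vv g)) * r g ^ 2 - 2 * r2 g ^ 2 := by
  have e := L_mul_mm g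
  unfold w1f
  rw [r2_eq, r1_eq]
  linear_combination (-(r g ^ 2 * (mm g ^ 2 - vv g))) * e

/-- `w' ≥ -2 r''² / m` -/
theorem mm_mul_w1f_ge (g : ℝ) : -(2 * r2 g ^ 2) ≤ mm g * w1f g := by
  rw [mm_mul_w1f]
  have h1 := b_mul_lt g
  have h2 : 0 ≤ (2 * vv g ^ 2 - (1 - vv g) * (mm g ^ 2 - vv g)) * r g ^ 2 :=
    mul_nonneg (by linarith) (sq_nonneg _)
  linarith

theorem w1f_le_left {g : ℝ} (hg : g ≤ -5) : w1f g ≤ 1 / 50 := by
  have h1 := r1_left hg
  have h2 := r_left hg
  have h3 := r2_le_left g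
  have h4 := r1_pos g
  have h5 := r_pos g
  have h6 := r2_pos g
  have h7 := vv_lt_one g
  have h8 := vv_pos g
  have h9 := qv_pos g
  have h10 := L_pos g
  have k1 : 0 ≤ r g * r g * L g * (mm g ^ 2 - vv g) := by positivity
  have k2 : r1 g ≤ 1 / 26 := by linarith
  have k3 : r2 g ≤ 6 / 130 := by linarith
  have k4 : r1 g * r2 g ≤ 1 / 26 * (6 / 130) := mul_le_mul k2 k3 h6.le (by norm_num)
  have k5 : r g * r1 g * vv g ≤ 1 / 5 * (1 / 26) * 1 :=
    mul_le_mul (mul_le_mul h2 k2 h4.le (by norm_num)) h7.le h8.le (by norm_num)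
  unfold w1f
  nlinarith

theorem neg_gk_left {g : ℝ} (hg : g ≤ -5) : -gk g ≤ 1 / 200 := by
  have h1 := r1_left hg
  have h3 := r2_le_left g
  have h4 := r1_pos g
  have h6 := r2_pos g
  have h5 : 5 ≤ mm g := by
    have := @mm_ge g
    linarith
  have k2 : r1 g ≤ 1 / 26 := by linarith
  have k3 : r2 g ≤ 6 / 130 := by linarith
  have k4 : r1 g * r2 g ≤ 1 / 26 * (6 / 130) := mul_le_mul k2 k3 h6.le (by norm_num)
  have k5 : r2 g ^ 2 ≤ (6 / 130) ^ 2 := pow_le_pow_left₀ h6.le k3 2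
  have k6 := mm_mul_w1f_ge g
  have k7 : -(1 / 1000) ≤ w1f g := by
    by_contra hc
    push Not at hc
    nlinarith
  unfold gk
  nlinarith

/-! ### the tails on the right -/

/-- `r'' ≤ c m` if `1/2 - c/2 ≤ r'` -/
theorem r2_le_cm {g c : ℝ} (h : 1 / 2 - c / 2 ≤ r1 g) : r2 g ≤ c * mm g := by
  have h1 := r2_le_right g
  have h2 := mm_pos g
  nlinarith

/-- `-G' ≤ (57/50) c² m + (93/100) c m` if `r'' ≤ c m` -/
theorem neg_gk_right {g c : ℝ} (hc : 0 ≤ c) (h : r2 g ≤ c * mm g) :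
    -gk g ≤ (57 / 50 * c ^ 2 + 93 / 100 * c) * mm g := by
  have h2 := mm_pos g
  have h3 := r2_pos g
  have h4 := r1_lt g
  have h5 := r1_pos g
  have h6 := mm_mul_w1f_ge g
  have h7 : r2 g ^ 2 ≤ (c * mm g) ^ 2 := pow_le_pow_left₀ h3.le h 2
  have h8 : -(2 * c ^ 2 * mm g) ≤ w1f g := by
    have : mm g * -(2 * c ^ 2 * mm g) ≤ mm g * w1f g := by nlinarith
    exact le_of_mul_le_mul_left this h2
  have h9 : r1 g * r2 g ≤ 1 / 2 * (c * mm g) := mul_le_mul h4.le h h3.le (by norm_num)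
  unfold gk
  nlinarith

/-! ### the seven inequalities -/

theorem f1 (g : ℝ) : gk g ≤ 1 / 50 * mm g := by
  rcases le_total g (-5) with hg | hg
  · have h1 := w1f_le_left hg
    have h5 : 5 ≤ mm g := by
      have := @mm_ge g
      linarith
    have h6 := mul_pos (r1_pos g) (r2_pos g)
    unfold gk
    linarith
  rcases le_total g 7 with hg' | hg'
  · have h := Cert.cert2 (e := .c 1 50 * .m - Cert.eg1)
      Cert.envOK_nil 64 [(4, 47), (2, 37), (4, 70), (2, 71), (1, 84)] (by decide) (by decide +kernel)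
      (x := g) (by norm_num; linarith) (by norm_num [Cert.tot]; linarith)
    simp only [Cert.ev_sub, Cert.ev_mul, Cert.ev_c, Cert.ev_m, Cert.ev_eg1] at h
    push_cast at h
    linarith
  rcases le_total g (39 / 4) with hg'' | hg''
  · have h := Cert.cert3 (e := .c 1 50 * .m - Cert.eg1)
      Cert.envOK_nil 512 [(1, 176)] (by decide) (by decide +kernel)
      (x := g) (by norm_num; linarith) (by norm_num [Cert.tot]; linarith)
    simp only [Cert.ev_sub, Cert.ev_mul, Cert.ev_c, Cert.ev_m, Cert.ev_eg1] at h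
    push_cast at h
    linarith
  · have h1 := b_ge (g := g) (by linarith)
    have h2 := m975 hg''
    have h3 := r1_975 hg''
    have hm := mm_pos g
    have hv := vv_pos g
    have h4 := mm_mul_w1f g
    have h5 := r1_eq g
    have h6 := mul_pos (r1_pos g) (r2_pos g)
    have h7 := r1_lt g
    -- `D2 ≤ (3/25) m⁴`
    have k1 : 2 * vv g ^ 2 - (1 - vv g) * (mm g ^ 2 - vv g) ≤ 3 / 25 * mm g ^ 4 := by
      have e4 : mm g ^ 4 = mm g ^ 2 * mm g ^ 2 := by ring
      rw [e4] at h1 ⊢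
      have hS : mm g ^ 2 ≤ 11 / 1000 := by nlinarith
      have hS0 : 0 < mm g ^ 2 := by positivity
      have hlt := vv_lt_sq g
      generalize mm g ^ 2 = S at *
      have i1 : vv g ≤ S - 47 / 25 * (S * S) := by linarith
      have i2 : vv g * vv g ≤ (S - 47 / 25 * (S * S)) * (S - 47 / 25 * (S * S)) :=
        mul_le_mul i1 i1 hv.le (by nlinarith)
      have i3 : (1 - vv g) * (47 / 25 * (S * S)) ≤ (1 - vv g) * (S - vv g) :=
        mul_le_mul_of_nonneg_left h1 (by linarith)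
      have i4 : (1 - S) * (47 / 25 * (S * S)) ≤ (1 - vv g) * (47 / 25 * (S * S)) :=
        mul_le_mul_of_nonneg_right (by linarith) (by positivity)
      have i5 : 0 ≤ (S * S) * S * (141 / 25 - 4418 / 625 * S) := mul_nonneg (by positivity) (by linarith)
      nlinarith
    have k2 : mm g ^ 2 * r g ^ 2 ≤ (5178 / 10000) ^ 2 := by
      have e5 : mm g ^ 2 * r g ^ 2 = (1 - r1 g) ^ 2 := by
        rw [h5]
        ring
      rw [e5]
      exact pow_le_pow_left₀ (by linarith) (by linarith) 2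
    have k3 : mm g * w1f g ≤ mm g * (3 / 25 * (5178 / 10000) ^ 2 * mm g) := by
      rw [h4]
      have j1 : (2 * vv g ^ 2 - (1 - vv g) * (mm g ^ 2 - vv g)) * r g ^ 2 ≤ 3 / 25 * mm g ^ 4 * r g ^ 2 :=
        mul_le_mul_of_nonneg_right k1 (sq_nonneg _)
      have j2 : mm g ^ 2 * (mm g ^ 2 * r g ^ 2) ≤ mm g ^ 2 * (5178 / 10000) ^ 2 :=
        mul_le_mul_of_nonneg_left k2 (sq_nonneg _)
      nlinarith [sq_nonneg (r2 g)]
    have k4 := le_of_mul_le_mul_left k3 hm
    unfold gk
    nlinarith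

theorem f2 (g : ℝ) : -(17 / 500 * mm g) ≤ gk g := by
  rcases le_total g (-5) with hg | hg
  · have h1 := neg_gk_left hg
    have h5 : 5 ≤ mm g := by
      have := @mm_ge g
      linarith
    linarith
  rcases le_total g 2 with hg' | hg'
  · have h := Cert.cert2 (e := .c 17 500 * .m + Cert.eg1)
      Cert.envOK_nil 64 [(8, 37), (4, 28), (2, 20)] (by decide) (by decide +kernel)
      (x := g) (by norm_num; linarith) (by norm_num [Cert.tot]; linarith)
    simp only [Cert.ev_add, Cert.ev_mul, Cert.ev_c, Cert.ev_m, Cert.ev_eg1] at h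
    push_cast at h
    linarith
  rcases le_total g 7 with hg'' | hg''
  · have h := Cert.cert3 (e := .c 17 500 * .m + Cert.eg1)
      Cert.envOK_nil 192 [(2, 13), (1, 294)] (by decide) (by decide +kernel)
      (x := g) (by norm_num; linarith) (by norm_num [Cert.tot]; linarith)
    simp only [Cert.ev_add, Cert.ev_mul, Cert.ev_c, Cert.ev_m, Cert.ev_eg1] at h
    push_cast at h
    linarith
  rcases le_total g (21 / 2) with hg3 | hg3
  · have h := Cert.cert3 (e := .c 17 500 * .m * .m + .c 57 100 * .c 2 1 * Cert.eV * Cert.eV * Cert.eV * .r * .r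
        - .c 114 100 * Cert.eR2 * Cert.eR2 - .c 93 50 * Cert.eR1 * Cert.eR2 * .m)
      Cert.envOK_nil 512 [(1, 224)] (by decide) (by decide +kernel)
      (x := g) (by norm_num; linarith) (by norm_num [Cert.tot]; linarith)
    simp only [Cert.ev_add, Cert.ev_sub, Cert.ev_mul, Cert.ev_c, Cert.ev_m, Cert.ev_r, Cert.ev_eV,
      Cert.ev_eR1, Cert.ev_eR2] at h
    push_cast at h
    have h1 := b_le hg''
    have hm := mm_pos g
    have hv := vv_pos g
    have hv1 := vv_lt_one g
    have h4 := mm_mul_w1f g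
    have k1 : 2 * vv g ^ 3 ≤ 2 * vv g ^ 2 - (1 - vv g) * (mm g ^ 2 - vv g) := by
      have := mul_le_mul_of_nonneg_left h1 (show 0 ≤ 1 - vv g by linarith)
      nlinarith
    have k2 : 2 * vv g ^ 3 * r g ^ 2 ≤ (2 * vv g ^ 2 - (1 - vv g) * (mm g ^ 2 - vv g)) * r g ^ 2 :=
      mul_le_mul_of_nonneg_right k1 (sq_nonneg _)
    have k3 : mm g * -(17 / 500 * mm g) ≤ mm g * gk g := by
      unfold gk
      nlinarith
    exact le_of_mul_le_mul_left k3 hm
  · have h1 := r1_105 hg3
    have h2 := neg_gk_right (g := g) (c := 32 / 1000) (by norm_num) (r2_le_cm (by linarith))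
    have hm := mm_pos g
    nlinarith

theorem f3 (g : ℝ) : r1 g * r2 g ≤ 7 / 200 * mm g := by
  rcases le_total g (-5) with hg | hg
  · have h1 := r1_left hg
    have h3 := r2_le_left g
    have h4 := r1_pos g
    have h6 := r2_pos g
    have h5 : 5 ≤ mm g := by
      have := @mm_ge g
      linarith
    nlinarith
  rcases le_total g (19 / 2) with hg' | hg'
  · have h := Cert.cert2 (e := .c 7 200 * .m - Cert.eR1 * Cert.eR2)
      Cert.envOK_nil 64 [(8, 39), (4, 19), (2, 38), (4, 84), (2, 64)] (by decide) (by decide +kernel)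
      (x := g) (by norm_num; linarith) (by norm_num [Cert.tot]; linarith)
    simp only [Cert.ev_sub, Cert.ev_mul, Cert.ev_c, Cert.ev_m, Cert.ev_eR1, Cert.ev_eR2] at h
    push_cast at h
    linarith
  · have h1 := r1_95 hg'
    have h2 : r2 g ≤ 37 / 1000 * mm g := r2_le_cm (by linarith)
    have h3 := r1_lt g
    have h4 := mm_pos g
    have h5 := r2_pos g
    have h9 : r1 g * r2 g ≤ 1 / 2 * (37 / 1000 * mm g) := mul_le_mul h3.le h2 h5.le (by norm_num)
    linarith

theorem f4 (g : ℝ) : -(57 / 5000) ≤ gk g := by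
  rcases le_total g (-5) with hg | hg
  · have h1 := neg_gk_left hg
    linarith
  rcases le_total g 1 with hg' | hg'
  · have h := Cert.cert2 (e := .c 57 5000 + Cert.eg1)
      Cert.envOK_nil 64 [(4, 90), (2, 12)] (by decide) (by decide +kernel)
      (x := g) (by norm_num; linarith) (by norm_num [Cert.tot]; linarith)
    simp only [Cert.ev_add, Cert.ev_c, Cert.ev_eg1] at h
    push_cast at h
    linarith
  rcases le_total g 10 with hg'' | hg''
  · have h := Cert.cert3 (e := .c 57 5000 + Cert.eg1)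
      Cert.envOK_nil 128 [(2, 15), (1, 48), (2, 141), (1, 216)] (by decide) (by decide +kernel)
      (x := g) (by norm_num; linarith) (by norm_num [Cert.tot]; linarith)
    simp only [Cert.ev_add, Cert.ev_c, Cert.ev_eg1] at h
    push_cast at h
    linarith
  · have h1 := r1_95 (g := g) (by linarith)
    have h2 := neg_gk_right (g := g) (c := 37 / 1000) (by norm_num) (r2_le_cm (by linarith))
    have hm := m95 (g := g) (by linarith)
    nlinarith

theorem f5 (g : ℝ) : r1 g * r2 g ≤ 111 / 5000 := by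
  rcases le_total g (-5) with hg | hg
  · have h1 := r1_left hg
    have h3 := r2_le_left g
    have h4 := r1_pos g
    have h6 := r2_pos g
    nlinarith
  rcases le_total g (19 / 2) with hg' | hg'
  · have h := Cert.cert2 (e := .c 111 5000 - Cert.eR1 * Cert.eR2)
      Cert.envOK_nil 64 [(4, 69), (2, 24), (4, 15), (8, 56), (4, 24)] (by decide) (by decide +kernel)
      (x := g) (by norm_num; linarith) (by norm_num [Cert.tot]; linarith)
    simp only [Cert.ev_sub, Cert.ev_mul, Cert.ev_c, Cert.ev_eR1, Cert.ev_eR2] at h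
    push_cast at h
    linarith
  · have h1 := r1_95 hg'
    have h2 : r2 g ≤ 37 / 1000 * mm g := r2_le_cm (by linarith)
    have h3 := r1_lt g
    have h4 := m95 hg'
    have h5 := r2_pos g
    have h9 : r1 g * r2 g ≤ 1 / 2 * (37 / 1000 * mm g) := mul_le_mul h3.le h2 h5.le (by norm_num)
    linarith

theorem q_right {g : ℝ} (hg : 19 / 2 ≤ g) : r1 g * r2 g * (g + 2) ≤ 225 / 10000 := by
  have h1 := r1_95 hg
  have h2 : r2 g ≤ 37 / 1000 * mm g := r2_le_cm (by linarith)
  have h3 := r1_lt g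
  have h4 := m95 hg
  have h5 := r2_pos g
  have h6 := mm_lt_inv (g := g) (by linarith)
  have h9 : r1 g * r2 g ≤ 1 / 2 * (37 / 1000 * mm g) := mul_le_mul h3.le h2 h5.le (by norm_num)
  have h10 : r1 g * r2 g * (g + 2) ≤ 1 / 2 * (37 / 1000 * mm g) * (g + 2) :=
    mul_le_mul_of_nonneg_right h9 (by linarith)
  nlinarith

theorem f6 (g : ℝ) : Gk g + r1 g * r2 g * (g + 2) ≤ 859 / 5000 := by
  rcases le_total g (-5) with hg | hg
  · have h1 := wf_left hg
    have h2 := mul_pos (r1_pos g) (r2_pos g)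
    have h3 : r1 g * r2 g * (g + 2) ≤ 0 := mul_nonpos_of_nonneg_of_nonpos h2.le (by linarith)
    have h4 := mul_pos (r1_pos g) (r1_pos g)
    unfold Gk
    nlinarith
  rcases le_total g 0 with hg' | hg'
  · have h := Cert.cert2 (e := .c 859 5000 - Cert.eG - Cert.eQ2)
      Cert.envOK_nil 64 [(8, 33), (4, 14)] (by decide) (by decide +kernel)
      (x := g) (by norm_num; linarith) (by norm_num [Cert.tot]; linarith)
    simp only [Cert.ev_sub, Cert.ev_c, Cert.ev_eG, Cert.ev_eQ2] at h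
    push_cast at h
    linarith
  rcases le_total g (19 / 2) with hg'' | hg''
  · have h := Cert.cert3 (e := .c 859 5000 - Cert.eG - Cert.eQ2)
      Cert.envOK_nil 64 [(4, 2), (2, 15), (1, 3), (2, 16), (4, 133), (2, 1), (1, 1)] (by decide) (by decide +kernel)
      (x := g) (by norm_num; linarith) (by norm_num [Cert.tot]; linarith)
    simp only [Cert.ev_sub, Cert.ev_c, Cert.ev_eG, Cert.ev_eQ2] at h
    push_cast at h
    linarith
  · have h1 := r1_95 hg''
    have h2 : r2 g ≤ 37 / 1000 * mm g := r2_le_cm (by linarith)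
    have h3 := q_right hg''
    have h4 := r1_eq g
    have h5 := r1_lt g
    have h6 := r_pos g
    have h7 : r g * r2 g ≤ r g * (37 / 1000 * mm g) := mul_le_mul_of_nonneg_left h2 h6.le
    have h8 : r g * mm g ≤ 5185 / 10000 := by linarith
    unfold Gk wf
    nlinarith

theorem f7 {g : ℝ} (hg : -1 ≤ g) : 1 / 100 ≤ Gk g - r1 g * r2 g * (g + 2) := by
  rcases le_total g (19 / 2) with hg'' | hg''
  · have h := Cert.cert3 (e := Cert.eG - Cert.eQ2 - .c 1 100)
      Cert.envOK_nil 0 [(8, 27), (4, 94), (2, 40)] (by decide) (by decide +kernel)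
      (x := g) (by norm_num; linarith) (by norm_num [Cert.tot]; linarith)
    simp only [Cert.ev_sub, Cert.ev_c, Cert.ev_eG, Cert.ev_eQ2] at h
    push_cast at h
    linarith
  · have h1 := r1_95 hg''
    have h3 := q_right hg''
    have h5 := r1_lt g
    have h6 := mul_pos (r_pos g) (r2_pos g)
    unfold Gk wf
    nlinarith

theorem f7' (g : ℝ) : 0 ≤ Gk g - r1 g * r2 g * (g + 2) := by
  rcases le_total g (-2) with hg | hg
  · have h2 := mul_pos (r1_pos g) (r2_pos g)
    have h3 : r1 g * r2 g * (g + 2) ≤ 0 := mul_nonpos_of_nonneg_of_nonpos h2.le (by linarith)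
    have h4 := r1_pos g
    have h5 := r1_lt g
    have h6 := mul_pos (r_pos g) (r2_pos g)
    unfold Gk wf
    nlinarith
  rcases le_total g (-1) with hg' | hg'
  · have h := Cert.cert2 (e := Cert.eG - Cert.eQ2)
      Cert.envOK_nil 256 [(8, 8)] (by decide) (by decide +kernel)
      (x := g) (by norm_num; linarith) (by norm_num [Cert.tot]; linarith)
    simp only [Cert.ev_sub, Cert.ev_eG, Cert.ev_eQ2] at h
    linarith
  · linarith [f7 hg']

end Vale.Agent.P254.H721
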