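import Vale.Agent.P254.H721.Kt
import Vale.Agent.P254.SP.H448.W1

/-!
P254, (SP_0) line, kernel `ktot`: the seven one-variable inequalities of `Kt.lean` in the names of
`SP/H448` (helper721 for helper448).
-/

namespace Vale.Agent.P254.H721

theorem nu_mm (x : ℝ) : H156.nu x = mm x := rfl

theorem r_r (x : ℝ) : H156.r x = r x := rfl

theorem r1_r1 (x : ℝ) : H156.r1 x = r1 x := by
  rw [r1_eq]
  rfl

theorem V_vv (x : ℝ) : SP448.V x = vv x := rfl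

theorem lm_L (x : ℝ) : H156.lm x = L x := rfl

theorem r2_r2 (x : ℝ) : H156.r2 x = r2 x := by
  rw [r2_eq, SP448.r2_eq]
  unfold SP448.Qd
  rw [nu_mm, r_r, V_vv]
  ring

theorem w_wf (x : ℝ) : SP448.w x = wf x := by
  unfold SP448.w wf
  rw [r1_r1, r2_r2, r_r]

theorem w1_w1f (x : ℝ) : SP448.w1 x = w1f x := by
  unfold SP448.w1 w1f
  rw [r1_r1, r2_r2, r_r, V_vv, nu_mm, lm_L]
  ring

theorem kt_f1 (x : ℝ) :
    57 / 100 * SP448.w1 x - 93 / 50 * (H156.r1 x * H156.r2 x) ≤ 1 / 50 * H156.nu x := by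
  have h := f1 x
  unfold gk at h
  rw [r1_r1, r2_r2, nu_mm, w1_w1f]
  linarith

theorem kt_f2 (x : ℝ) :
    -(17 / 500 * H156.nu x) ≤ 57 / 100 * SP448.w1 x - 93 / 50 * (H156.r1 x * H156.r2 x) := by
  have h := f2 x
  unfold gk at h
  rw [r1_r1, r2_r2, nu_mm, w1_w1f]
  linarith

theorem kt_f3 (x : ℝ) : H156.r1 x * H156.r2 x ≤ 7 / 200 * H156.nu x := by
  rw [r1_r1, r2_r2, nu_mm]
  exact f3 x

theorem kt_f4 (x : ℝ) :
    -(57 / 5000) ≤ 57 / 100 * SP448.w1 x - 93 / 50 * (H156.r1 x * H156.r2 x) := by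
  have h := f4 x
  unfold gk at h
  rw [r1_r1, r2_r2, w1_w1f]
  linarith

theorem kt_f5 (x : ℝ) : H156.r1 x * H156.r2 x ≤ 111 / 5000 := by
  rw [r1_r1, r2_r2]
  exact f5 x

theorem kt_f6 (x : ℝ) :
    57 / 100 * SP448.w x - 93 / 100 * H156.r1 x ^ 2 + H156.r1 x * H156.r2 x * (x + 2) ≤ 859 / 5000 := by
  have h := f6 x
  unfold Gk at h
  rw [r1_r1, r2_r2, w_wf]
  linarith

theorem kt_f7 {x : ℝ} (hx : -1 ≤ x) :
    1 / 100 ≤ 57 / 100 * SP448.w x - 93 / 100 * H156.r1 x ^ 2 - H156.r1 x * H156.r2 x * (x + 2) := by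
  have h := f7 hx
  unfold Gk at h
  rw [r1_r1, r2_r2, w_wf]
  linarith

theorem kt_f7' (x : ℝ) :
    0 ≤ 57 / 100 * SP448.w x - 93 / 100 * H156.r1 x ^ 2 - H156.r1 x * H156.r2 x * (x + 2) := by
  have h := f7' x
  unfold Gk at h
  rw [r1_r1, r2_r2, w_wf]
  linarith

end Vale.Agent.P254.H721
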