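import Vale.Agent.P254.H721.Env

/-!
P254, (SP_0) line (helper721): the scalar form of the column certificate for `q ≥ 4` (mode 1) and its
tails `g ≤ -5`, `9 ≤ g` for arbitrary numbers.
-/

namespace Vale.Agent.P254.H721

open Real Set

/-- scalar form of the column certificate, `p = 1/(4 yy)`, `z = 1/(4 zz)` -/
noncomputable def PHI4 (K eta D q mu be L1 L2 L3 L4 T0 L5 W0 W1 p z : ℝ) (g : ℝ) : ℝ :=
  K + eta * (D * wf g + mu * (g * th g - q * (wf g + r1 g ^ 2)) - be * q * r1 g ^ 2)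
    + L4 * g + T0 * (g ^ 2 - q) - L5 * q - (W0 + W1 * r1 g)
    - p * (eta * (1 - mu) * th g + L1 + L2 * g) ^ 2
    - z * (eta * (wf g - mu * (wf g + r1 g ^ 2) - be * r1 g ^ 2) + L3) ^ 2

/-- lower bound of `α t - β (γ t + δ)²` on `[lo, hi]` by the end points -/
theorem concave_end {α β γ δ lo hi t R : ℝ} (hβ : 0 ≤ β) (h1 : lo ≤ t) (h2 : t ≤ hi)
    (hlo : R ≤ α * lo - β * (γ * lo + δ) ^ 2) (hhi : R ≤ α * hi - β * (γ * hi + δ) ^ 2) :
    R ≤ α * t - β * (γ * t + δ) ^ 2 := by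
  rcases h1.eq_or_lt with h | h
  · rw [← h]
    exact hlo
  · have hlh : 0 < hi - lo := by linarith
    have key : (hi - lo) * (α * t - β * (γ * t + δ) ^ 2) =
        (hi - t) * (α * lo - β * (γ * lo + δ) ^ 2) + (t - lo) * (α * hi - β * (γ * hi + δ) ^ 2)
        + (hi - lo) * (β * γ ^ 2 * ((t - lo) * (hi - t))) := by ring
    have h3 : (hi - lo) * R ≤ (hi - lo) * (α * t - β * (γ * t + δ) ^ 2) := by
      rw [key]
      have a1 : (hi - t) * R ≤ (hi - t) * (α * lo - β * (γ * lo + δ) ^ 2) :=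
        mul_le_mul_of_nonneg_left hlo (by linarith)
      have a2 : (t - lo) * R ≤ (t - lo) * (α * hi - β * (γ * hi + δ) ^ 2) :=
        mul_le_mul_of_nonneg_left hhi (by linarith)
      have a3 : 0 ≤ (hi - lo) * (β * γ ^ 2 * ((t - lo) * (hi - t))) := by
        have := mul_nonneg (sub_nonneg.2 h1) (sub_nonneg.2 h2)
        positivity
      linarith
    exact le_of_mul_le_mul_left h3 hlh

/-- LEFT TAIL `g ≤ -5 - h0`, with `h = -5 - g ≥ h0 ≥ 0`. -/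
theorem phi4_leftG {K eta D q mu be L1 L2 L3 L4 T0 L5 W0 W1 p z e B2 h0 : ℝ} (hh0 : 0 ≤ h0)
    (heta : 0 ≤ eta) (hD : 0 ≤ D) (hmu : 0 ≤ mu) (hmu1 : mu ≤ 1) (hbe : 0 ≤ be) (hq : 0 ≤ q)
    (hW1 : 0 ≤ W1) (hp : 0 ≤ p) (hz : 0 ≤ z)
    (hB1 : 0 ≤ B2 - L3 - eta / 20) (hB2 : 0 ≤ B2 + L3 - eta * (mu + be) / 650)
    (hlo : ∀ h : ℝ, h0 ≤ h → e ≤ K - eta * q * (mu / 20 + (mu + be) / 650) + L4 * (-5 - h)
      + T0 * ((-5 - h) ^ 2 - q) - L5 * q - W0 - W1 / 26 - z * B2 ^ 2 - p * (L1 + L2 * (-5 - h)) ^ 2)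
    (hhi : ∀ h : ℝ, h0 ≤ h → e ≤ K - eta * q * (mu / 20 + (mu + be) / 650) + L4 * (-5 - h)
      + T0 * ((-5 - h) ^ 2 - q) - L5 * q - W0 - W1 / 26 - z * B2 ^ 2
      + eta * mu * (-5 - h) * (21 / 100) - p * (eta * (1 - mu) * (21 / 100) + L1 + L2 * (-5 - h)) ^ 2)
    {g : ℝ} (hg : g ≤ -5 - h0) : e ≤ PHI4 K eta D q mu be L1 L2 L3 L4 T0 L5 W0 W1 p z g := by
  obtain ⟨h, rfl⟩ : ∃ h, g = -5 - h := ⟨-5 - g, by ring⟩
  have hh : h0 ≤ h := by linarith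
  replace hg : -5 - h ≤ -5 := by linarith
  have w0 := wf_pos (-5 - h)
  have w1 := wf_left hg
  have t0 := th_pos (-5 - h)
  have t1 := th_left hg
  have s0 := r1_pos (-5 - h)
  have s1 := r1_left hg
  have s2 : r1 (-5 - h) ^ 2 ≤ 1 / 650 := by nlinarith
  have s3 : 0 ≤ r1 (-5 - h) ^ 2 := sq_nonneg _
  unfold PHI4
  generalize wf (-5 - h) = w at *
  generalize th (-5 - h) = t at *
  have hS : r1 (-5 - h) ≤ 1 / 26 := by linarith
  generalize r1 (-5 - h) = S at *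
  set B := eta * (w - mu * (w + S ^ 2) - be * S ^ 2) + L3 with hB
  have b1 : eta * ((1 - mu) * w) ≤ eta / 20 := by
    have : (1 - mu) * w ≤ 1 * (1 / 20) := mul_le_mul (by linarith) w1 w0.le (by norm_num)
    have := mul_le_mul_of_nonneg_left this heta
    linarith
  have b2 : 0 ≤ eta * ((1 - mu) * w) := mul_nonneg heta (mul_nonneg (by linarith) w0.le)
  have b3 : eta * ((mu + be) * S ^ 2) ≤ eta * (mu + be) / 650 := by
    have : (mu + be) * S ^ 2 ≤ (mu + be) * (1 / 650) := mul_le_mul_of_nonneg_left s2 (by linarith)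
    have := mul_le_mul_of_nonneg_left this heta
    linarith
  have b4 : 0 ≤ eta * ((mu + be) * S ^ 2) := by positivity
  have b5 : B = eta * ((1 - mu) * w) - eta * ((mu + be) * S ^ 2) + L3 := by rw [hB]; ring
  have hBB : B ^ 2 ≤ B2 ^ 2 := by
    apply sq_le_sq'
    · linarith
    · linarith
  have c1 : 0 ≤ eta * (D * w) := by positivity
  have c2 : eta * q * (mu * (w + S ^ 2) + be * S ^ 2) ≤ eta * q * (mu / 20 + (mu + be) / 650) := by
    apply mul_le_mul_of_nonneg_left _ (mul_nonneg heta hq)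
    have d1 := mul_le_mul_of_nonneg_left w1 hmu
    have d2 := mul_le_mul_of_nonneg_left s2 hmu
    have d3 := mul_le_mul_of_nonneg_left s2 hbe
    linarith
  have c3 : W1 * S ≤ W1 / 26 := by
    have := mul_le_mul_of_nonneg_left hS hW1
    linarith
  have c4 : z * B ^ 2 ≤ z * B2 ^ 2 := mul_le_mul_of_nonneg_left hBB hz
  clear_value B
  have key := concave_end (α := eta * mu * (-5 - h)) (β := p) (γ := eta * (1 - mu)) (δ := L1 + L2 * (-5 - h))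
    (R := e - (K - eta * q * (mu / 20 + (mu + be) / 650) + L4 * (-5 - h)
      + T0 * ((-5 - h) ^ 2 - q) - L5 * q - W0 - W1 / 26 - z * B2 ^ 2)) hp t0.le t1
    (by
      have h7 := hlo h hh
      have h8 : eta * mu * (-5 - h) * 0 - p * (eta * (1 - mu) * 0 + (L1 + L2 * (-5 - h))) ^ 2
        = - (p * (L1 + L2 * (-5 - h)) ^ 2) := by ring
      rw [h8]
      linarith)
    (by
      have h7 := hhi h hh
      have h8 : eta * (1 - mu) * (21 / 100) + L1 + L2 * (-5 - h) = eta * (1 - mu) * (21 / 100) + (L1 + L2 * (-5 - h)) := by ring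
      rw [h8] at h7
      linarith)
  have h9 : eta * (1 - mu) * t + L1 + L2 * (-5 - h) = eta * (1 - mu) * t + (L1 + L2 * (-5 - h)) := by ring
  rw [h9]
  have h10 : eta * (D * w + mu * ((-5 - h) * t - q * (w + S ^ 2)) - be * q * S ^ 2)
      = eta * (D * w) + eta * mu * (-5 - h) * t - eta * q * (mu * (w + S ^ 2) + be * S ^ 2) := by ring
  rw [h10]
  linarith [key, c1, c2, c3, c4]

/-- LEFT TAIL. With `h = -5 - g ≥ 0`. -/
theorem phi4_left {K eta D q mu be L1 L2 L3 L4 T0 L5 W0 W1 p z e B2 : ℝ}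
    (heta : 0 ≤ eta) (hD : 0 ≤ D) (hmu : 0 ≤ mu) (hmu1 : mu ≤ 1) (hbe : 0 ≤ be) (hq : 0 ≤ q)
    (hW1 : 0 ≤ W1) (hp : 0 ≤ p) (hz : 0 ≤ z)
    (hB1 : 0 ≤ B2 - L3 - eta / 20) (hB2 : 0 ≤ B2 + L3 - eta * (mu + be) / 650)
    (hlo : ∀ h : ℝ, 0 ≤ h → e ≤ K - eta * q * (mu / 20 + (mu + be) / 650) + L4 * (-5 - h)
      + T0 * ((-5 - h) ^ 2 - q) - L5 * q - W0 - W1 / 26 - z * B2 ^ 2 - p * (L1 + L2 * (-5 - h)) ^ 2)
    (hhi : ∀ h : ℝ, 0 ≤ h → e ≤ K - eta * q * (mu / 20 + (mu + be) / 650) + L4 * (-5 - h)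
      + T0 * ((-5 - h) ^ 2 - q) - L5 * q - W0 - W1 / 26 - z * B2 ^ 2
      + eta * mu * (-5 - h) * (21 / 100) - p * (eta * (1 - mu) * (21 / 100) + L1 + L2 * (-5 - h)) ^ 2)
    {g : ℝ} (hg : g ≤ -5) : e ≤ PHI4 K eta D q mu be L1 L2 L3 L4 T0 L5 W0 W1 p z g :=
  phi4_leftG le_rfl heta hD hmu hmu1 hbe hq hW1 hp hz hB1 hB2 hlo hhi (by linarith)

/-- RIGHT TAIL. With `h = g - 9 ≥ 0`. -/
theorem phi4_right {K eta D q mu be L1 L2 L3 L4 T0 L5 W0 W1 p z e B2 : ℝ}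
    (heta : 0 ≤ eta) (hD : 0 ≤ D) (hmu : 0 ≤ mu) (hmu1 : mu ≤ 1) (hbe : 0 ≤ be) (hq : 0 ≤ q)
    (hW1 : 0 ≤ W1) (hp : 0 ≤ p) (hz : 0 ≤ z)
    (hB1 : 0 ≤ B2 - L3 - eta * ((1 - mu) * (501 / 1000) - (mu + be) * (229 / 1000)))
    (hB2 : 0 ≤ B2 + L3 + eta * ((1 - mu) * (479 / 1000) - (mu + be) / 4))
    (hlo : ∀ h : ℝ, 0 ≤ h → e ≤ K + eta * D * (479 / 1000) - eta * q * (mu * (751 / 1000) + be / 4) + L4 * (9 + h)
      + T0 * ((9 + h) ^ 2 - q) - L5 * q - W0 - W1 / 2 - z * B2 ^ 2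
      + eta * mu * (9 + h) * (7082 / 1000 + 708 / 1000 * h)
      - p * (eta * (1 - mu) * (7082 / 1000 + 708 / 1000 * h) + (L1 + L2 * (9 + h))) ^ 2)
    (hhi : ∀ h : ℝ, 0 ≤ h → e ≤ K + eta * D * (479 / 1000) - eta * q * (mu * (751 / 1000) + be / 4) + L4 * (9 + h)
      + T0 * ((9 + h) ^ 2 - q) - L5 * q - W0 - W1 / 2 - z * B2 ^ 2
      + eta * mu * (9 + h) * (7187 / 1000 + 3 / 4 * h)
      - p * (eta * (1 - mu) * (7187 / 1000 + 3 / 4 * h) + (L1 + L2 * (9 + h))) ^ 2)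
    {g : ℝ} (hg : 9 ≤ g) : e ≤ PHI4 K eta D q mu be L1 L2 L3 L4 T0 L5 W0 W1 p z g := by
  obtain ⟨h, rfl⟩ : ∃ h, g = 9 + h := ⟨g - 9, by ring⟩
  have hh : 0 ≤ h := by linarith
  have w0 := wf_right_ge hg
  have w1 := wf_right_le hg
  have t0 := th_right_ge hg
  have t1 := th_right_le hg
  have s0 := r1_right hg
  have s1 := r1_lt (9 + h)
  have s2 : r1 (9 + h) ^ 2 ≤ 1 / 4 := by nlinarith
  have s3 : 229 / 1000 ≤ r1 (9 + h) ^ 2 := by nlinarith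
  unfold PHI4
  generalize wf (9 + h) = w at *
  generalize th (9 + h) = t at *
  generalize r1 (9 + h) = S at *
  set B := eta * (w - mu * (w + S ^ 2) - be * S ^ 2) + L3 with hB
  have hm0 : 0 ≤ 1 - mu := by linarith
  have b5 : B = eta * ((1 - mu) * w - (mu + be) * S ^ 2) + L3 := by rw [hB]; ring
  have d1 := mul_le_mul_of_nonneg_left w1 hm0
  have d2 := mul_le_mul_of_nonneg_left w0 hm0
  have d3 : (mu + be) * S ^ 2 ≤ (mu + be) * (1 / 4) := mul_le_mul_of_nonneg_left s2 (by linarith)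
  have d4 : (mu + be) * (229 / 1000) ≤ (mu + be) * S ^ 2 := mul_le_mul_of_nonneg_left s3 (by linarith)
  have hBB : B ^ 2 ≤ B2 ^ 2 := by
    have a1 : eta * ((1 - mu) * w - (mu + be) * S ^ 2) ≤ eta * ((1 - mu) * (501 / 1000) - (mu + be) * (229 / 1000)) :=
      mul_le_mul_of_nonneg_left (by linarith) heta
    have a2 : eta * ((1 - mu) * (479 / 1000) - (mu + be) / 4) ≤ eta * ((1 - mu) * w - (mu + be) * S ^ 2) :=
      mul_le_mul_of_nonneg_left (by linarith) heta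
    apply sq_le_sq'
    · linarith
    · linarith
  have c1 : eta * D * (479 / 1000) ≤ eta * D * w := mul_le_mul_of_nonneg_left w0 (mul_nonneg heta hD)
  have c2 : eta * q * (mu * (w + S ^ 2) + be * S ^ 2) ≤ eta * q * (mu * (751 / 1000) + be / 4) := by
    apply mul_le_mul_of_nonneg_left _ (mul_nonneg heta hq)
    have f1 := mul_le_mul_of_nonneg_left w1 hmu
    have f2 := mul_le_mul_of_nonneg_left s2 hmu
    have f3 := mul_le_mul_of_nonneg_left s2 hbe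
    linarith
  have c3 : W1 * S ≤ W1 / 2 := by
    have := mul_le_mul_of_nonneg_left s1.le hW1
    linarith
  have c4 : z * B ^ 2 ≤ z * B2 ^ 2 := mul_le_mul_of_nonneg_left hBB hz
  clear_value B
  have e1 : 7082 / 1000 + 708 / 1000 * h ≤ t := by linarith
  have e2 : t ≤ 7187 / 1000 + 3 / 4 * h := by linarith
  have key := concave_end (α := eta * mu * (9 + h)) (β := p) (γ := eta * (1 - mu)) (δ := L1 + L2 * (9 + h))
    (R := e - (K + eta * D * (479 / 1000) - eta * q * (mu * (751 / 1000) + be / 4) + L4 * (9 + h)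
      + T0 * ((9 + h) ^ 2 - q) - L5 * q - W0 - W1 / 2 - z * B2 ^ 2)) hp e1 e2
    (by linarith [hlo h hh]) (by linarith [hhi h hh])
  have h9 : eta * (1 - mu) * t + L1 + L2 * (9 + h) = eta * (1 - mu) * t + (L1 + L2 * (9 + h)) := by ring
  rw [h9]
  have h10 : eta * (D * w + mu * ((9 + h) * t - q * (w + S ^ 2)) - be * q * S ^ 2)
      = eta * D * w + eta * mu * (9 + h) * t - eta * q * (mu * (w + S ^ 2) + be * S ^ 2) := by ring
  rw [h10]
  linarith [key, c1, c2, c3, c4]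

namespace Cert

/-- the expression of `PHI4` -/
def ePHI4 (K eta D q mu be L1 L2 L3 L4 T0 L5 W0 W1 p z : Pe) : Pe :=
  K + eta * (D * eW + mu * (.x * eTh - q * (eW + eR1 * eR1)) - be * q * (eR1 * eR1))
    + L4 * .x + T0 * (.x * .x - q) - L5 * q - (W0 + W1 * eR1)
    - p * ((eta * (.c 1 1 - mu) * eTh + L1 + L2 * .x) * (eta * (.c 1 1 - mu) * eTh + L1 + L2 * .x))
    - z * ((eta * (eW - mu * (eW + eR1 * eR1) - be * (eR1 * eR1)) + L3)
      * (eta * (eW - mu * (eW + eR1 * eR1) - be * (eR1 * eR1)) + L3))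

theorem ev_ePHI4 (ρ : ℕ → ℝ) (g : ℝ) {K eta D q mu be L1 L2 L3 L4 T0 L5 W0 W1 p z : Pe}
    {K' eta' D' q' mu' be' L1' L2' L3' L4' T0' L5' W0' W1' p' z' : ℝ}
    (hK : K.ev ρ g (mm g) (r g) = K') (heta : eta.ev ρ g (mm g) (r g) = eta')
    (hD : D.ev ρ g (mm g) (r g) = D') (hq : q.ev ρ g (mm g) (r g) = q')
    (hmu : mu.ev ρ g (mm g) (r g) = mu') (hbe : be.ev ρ g (mm g) (r g) = be')
    (h1 : L1.ev ρ g (mm g) (r g) = L1') (h2 : L2.ev ρ g (mm g) (r g) = L2')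
    (h3 : L3.ev ρ g (mm g) (r g) = L3') (h4 : L4.ev ρ g (mm g) (r g) = L4')
    (h0 : T0.ev ρ g (mm g) (r g) = T0') (h5 : L5.ev ρ g (mm g) (r g) = L5')
    (hW0 : W0.ev ρ g (mm g) (r g) = W0') (hW1 : W1.ev ρ g (mm g) (r g) = W1')
    (hp : p.ev ρ g (mm g) (r g) = p') (hz : z.ev ρ g (mm g) (r g) = z') :
    (ePHI4 K eta D q mu be L1 L2 L3 L4 T0 L5 W0 W1 p z).ev ρ g (mm g) (r g)
      = PHI4 K' eta' D' q' mu' be' L1' L2' L3' L4' T0' L5' W0' W1' p' z' g := by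
  simp only [ePHI4, ev_add, ev_sub, ev_mul, ev_x, ev_c, ev_eW, ev_eTh, ev_eR1, hK, heta, hD, hq, hmu, hbe,
    h1, h2, h3, h4, h0, h5, hW0, hW1, hp, hz]
  unfold PHI4
  push_cast
  ring

end Cert

end Vale.Agent.P254.H721
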