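import Vale.Agent.P254.H721.P4T
import Vale.Agent.P254.SP.H425.Scal

/-!
P254, line (SP_0), row P4 (helper721): the two one-variable inequalities of helper425's certificate for `q ∈ [4, 7]`.
-/

namespace Vale.Agent.P254.H721

open Cert

set_option maxRecDepth 100000

theorem phi_b4 (g : ℝ) : 0 ≤ PHI4 (-22861 / 80000) (7 / 10) 3 4 (129 / 1000) (3 / 20) (-79 / 100) (-31 / 200) (-3 / 20) (-11 / 50) (19 / 1000) (3 / 2000) (2207 / 62500) (13 / 2500) (25 / 43) (1003 / 100) g := by
  rcases le_total g ((-5)) with hg | hg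
  · refine phi4_leftG (h0 := 0) (B2 := (976953 / 6500000)) (by norm_num) (by norm_num) (by norm_num) (by norm_num) (by norm_num) (by norm_num)
      (by norm_num) (by norm_num) (by norm_num) (by norm_num) (by norm_num) (by norm_num) ?_ ?_ (by linarith)
    · intro h hh
      nlinarith [mul_nonneg (sub_nonneg.2 hh) (sub_nonneg.2 hh)]
    · intro h hh
      nlinarith [mul_nonneg (sub_nonneg.2 hh) (sub_nonneg.2 hh)]
  rcases le_total g 9 with hg' | hg'
  · have h := cert2 (e := ePHI4 (.c (-22861) 80000) (.c 7 10) (.c 3 1) (.c 4 1) (.c 129 1000) (.c 3 20) (.c (-79) 100) (.c (-31) 200) (.c (-3) 20) (.c (-11) 50) (.c 19 1000) (.c 3 2000) (.c 2207 62500) (.c 13 2500) (.c 25 43) (.c 1003 100) - (.c 0 1))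
      envOK_nil 64 [(8, 34), (4, 50), (8, 46), (4, 14)]
      (by decide) (by decide +kernel) (x := g) (by norm_num; linarith) (by norm_num [tot]; linarith)
    rw [ev_sub, ev_ePHI4 _ g (ev_c ..) (ev_c ..) (ev_c ..) (ev_c ..) (ev_c ..) (ev_c ..) (ev_c ..) (ev_c ..)
      (ev_c ..) (ev_c ..) (ev_c ..) (ev_c ..) (ev_c ..) (ev_c ..) (ev_c ..) (ev_c ..), ev_c] at h
    norm_num at h ⊢
    linarith
  · refine phi4_right (B2 := (6921 / 62500)) (by norm_num) (by norm_num) (by norm_num) (by norm_num) (by norm_num)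
      (by norm_num) (by norm_num) (by norm_num) (by norm_num) (by norm_num) (by norm_num) ?_ ?_ hg'
    · intro h hh
      nlinarith [mul_nonneg hh hh]
    · intro h hh
      nlinarith [mul_nonneg hh hh]

theorem phiB_4 (g : ℝ) : 0 ≤ SP425.PhiB (17 / 10) (81 / 400) (-79 / 100) (-31 / 200) (-3 / 20) (-11 / 50) (3 / 2000)
    (19 / 1000) (903 / 10000) (21 / 200) (29 / 25) (1 / 1000) (8828 / 1000000) (13 / 10000) (43 / 100) 4 (1003 / 100)
    g (r1 g) (wf g) (th g) (wf g + r1 g ^ 2) := by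
  refine (phi_b4 g).trans_eq ?_
  unfold SP425.PhiB PHI4
  ring

theorem phi_b7 (g : ℝ) : 0 ≤ PHI4 (-10609 / 20000) (7 / 10) 6 7 (129 / 1000) (3 / 20) (-79 / 100) (-31 / 200) (-3 / 20) (-11 / 50) (19 / 1000) (3 / 2000) (15449 / 250000) (91 / 10000) (25 / 43) (603 / 25) g := by
  rcases le_total g ((-5)) with hg | hg
  · refine phi4_leftG (h0 := 0) (B2 := (976953 / 6500000)) (by norm_num) (by norm_num) (by norm_num) (by norm_num) (by norm_num) (by norm_num)
      (by norm_num) (by norm_num) (by norm_num) (by norm_num) (by norm_num) (by norm_num) ?_ ?_ (by linarith)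
    · intro h hh
      nlinarith [mul_nonneg (sub_nonneg.2 hh) (sub_nonneg.2 hh)]
    · intro h hh
      nlinarith [mul_nonneg (sub_nonneg.2 hh) (sub_nonneg.2 hh)]
  rcases le_total g 9 with hg' | hg'
  · have h := cert2 (e := ePHI4 (.c (-10609) 20000) (.c 7 10) (.c 6 1) (.c 7 1) (.c 129 1000) (.c 3 20) (.c (-79) 100) (.c (-31) 200) (.c (-3) 20) (.c (-11) 50) (.c 19 1000) (.c 3 2000) (.c 15449 250000) (.c 91 10000) (.c 25 43) (.c 603 25) - (.c 0 1))
      envOK_nil 64 [(4, 71), (8, 23), (4, 107)]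
      (by decide) (by decide +kernel) (x := g) (by norm_num; linarith) (by norm_num [tot]; linarith)
    rw [ev_sub, ev_ePHI4 _ g (ev_c ..) (ev_c ..) (ev_c ..) (ev_c ..) (ev_c ..) (ev_c ..) (ev_c ..) (ev_c ..)
      (ev_c ..) (ev_c ..) (ev_c ..) (ev_c ..) (ev_c ..) (ev_c ..) (ev_c ..) (ev_c ..), ev_c] at h
    norm_num at h ⊢
    linarith
  · refine phi4_right (B2 := (6921 / 62500)) (by norm_num) (by norm_num) (by norm_num) (by norm_num) (by norm_num)
      (by norm_num) (by norm_num) (by norm_num) (by norm_num) (by norm_num) (by norm_num) ?_ ?_ hg'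
    · intro h hh
      nlinarith [mul_nonneg hh hh]
    · intro h hh
      nlinarith [mul_nonneg hh hh]

theorem phiB_7 (g : ℝ) : 0 ≤ SP425.PhiB (17 / 10) (81 / 400) (-79 / 100) (-31 / 200) (-3 / 20) (-11 / 50) (3 / 2000)
    (19 / 1000) (903 / 10000) (21 / 200) (29 / 25) (1 / 1000) (8828 / 1000000) (13 / 10000) (43 / 100) 7 (2412 / 100)
    g (r1 g) (wf g) (th g) (wf g + r1 g ^ 2) := by
  refine (phi_b7 g).trans_eq ?_
  unfold SP425.PhiB PHI4
  ring

end Vale.Agent.P254.H721
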