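import Vale.Agent.P254.H721.P4T
import Vale.Agent.P254.SP.H20.PhiQ

/-!
P254, line (SP_0), row P4 (helper721): `a6`, `b6` of `SP20.Phis` for all real `g`.
-/

namespace Vale.Agent.P254.H721

open Cert

set_option maxRecDepth 100000

theorem phi_a6 (g : ℝ) : 0 ≤ PHI4 (-241 / 500) (5 / 8) 6 7 (473 / 2000) (11 / 40) (-63 / 100) (-17 / 200) (-21 / 200) (-33 / 100) (7 / 1000) (1 / 2000) (567 / 16384) (847 / 20480) (250 / 289) (12500 / 399) g := by
  rcases le_total g ((-5)) with hg | hg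
  · refine phi4_leftG (h0 := 0) (B2 := (219423 / 2080000)) (by norm_num) (by norm_num) (by norm_num) (by norm_num) (by norm_num) (by norm_num)
      (by norm_num) (by norm_num) (by norm_num) (by norm_num) (by norm_num) (by norm_num) ?_ ?_ (by linarith)
    · intro h hh
      nlinarith [mul_nonneg (sub_nonneg.2 hh) (sub_nonneg.2 hh)]
    · intro h hh
      nlinarith [mul_nonneg (sub_nonneg.2 hh) (sub_nonneg.2 hh)]
  rcases le_total g 9 with hg' | hg'
  · have h := cert2 (e := ePHI4 (.c (-241) 500) (.c 5 8) (.c 6 1) (.c 7 1) (.c 473 2000) (.c 11 40) (.c (-63) 100) (.c (-17) 200) (.c (-21) 200) (.c (-33) 100) (.c 7 1000) (.c 1 2000) (.c 567 16384) (.c 847 20480) (.c 250 289) (.c 12500 399) - (.c 0 1))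
      envOK_nil 64 [(4, 224)]
      (by decide) (by decide +kernel) (x := g) (by norm_num; linarith) (by norm_num [tot]; linarith)
    rw [ev_sub, ev_ePHI4 _ g (ev_c ..) (ev_c ..) (ev_c ..) (ev_c ..) (ev_c ..) (ev_c ..) (ev_c ..) (ev_c ..)
      (ev_c ..) (ev_c ..) (ev_c ..) (ev_c ..) (ev_c ..) (ev_c ..) (ev_c ..) (ev_c ..), ev_c] at h
    norm_num at h ⊢
    linarith
  · refine phi4_right (B2 := (4869 / 80000)) (by norm_num) (by norm_num) (by norm_num) (by norm_num) (by norm_num)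
      (by norm_num) (by norm_num) (by norm_num) (by norm_num) (by norm_num) (by norm_num) ?_ ?_ hg'
    · intro h hh
      nlinarith [mul_nonneg hh hh]
    · intro h hh
      nlinarith [mul_nonneg hh hh]

theorem a6 (g : ℝ) : 0 ≤ SP20.Phi6 7 (798 / 100000) (-482 / 1000) g := by
  refine (phi_a6 g).trans_eq ?_
  unfold SP20.Phi6 SP20.PHI SP20.VV PHI4
  ring

theorem phi_b6 (g : ℝ) : 0 ≤ PHI4 (-31 / 40) (5 / 8) 11 12 (473 / 2000) (11 / 40) (-63 / 100) (-17 / 200) (-21 / 200) (-33 / 100) (7 / 1000) (1 / 2000) (243 / 4096) (363 / 5120) (250 / 289) (25000 / 321) g := by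
  rcases le_total g ((-23 / 4)) with hg | hg
  · refine phi4_leftG (h0 := (3 / 4)) (B2 := (219423 / 2080000)) (by norm_num) (by norm_num) (by norm_num) (by norm_num) (by norm_num) (by norm_num)
      (by norm_num) (by norm_num) (by norm_num) (by norm_num) (by norm_num) (by norm_num) ?_ ?_ (by linarith)
    · intro h hh
      nlinarith [mul_nonneg (sub_nonneg.2 hh) (sub_nonneg.2 hh)]
    · intro h hh
      nlinarith [mul_nonneg (sub_nonneg.2 hh) (sub_nonneg.2 hh)]
  rcases le_total g 9 with hg' | hg'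
  · have h := cert2 (e := ePHI4 (.c (-31) 40) (.c 5 8) (.c 11 1) (.c 12 1) (.c 473 2000) (.c 11 40) (.c (-63) 100) (.c (-17) 200) (.c (-21) 200) (.c (-33) 100) (.c 7 1000) (.c 1 2000) (.c 243 4096) (.c 363 5120) (.c 250 289) (.c 25000 321) - (.c 0 1))
      envOK_nil 16 [(4, 24), (2, 44), (4, 190)]
      (by decide) (by decide +kernel) (x := g) (by norm_num; linarith) (by norm_num [tot]; linarith)
    rw [ev_sub, ev_ePHI4 _ g (ev_c ..) (ev_c ..) (ev_c ..) (ev_c ..) (ev_c ..) (ev_c ..) (ev_c ..) (ev_c ..)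
      (ev_c ..) (ev_c ..) (ev_c ..) (ev_c ..) (ev_c ..) (ev_c ..) (ev_c ..) (ev_c ..), ev_c] at h
    norm_num at h ⊢
    linarith
  · refine phi4_right (B2 := (4869 / 80000)) (by norm_num) (by norm_num) (by norm_num) (by norm_num) (by norm_num)
      (by norm_num) (by norm_num) (by norm_num) (by norm_num) (by norm_num) (by norm_num) ?_ ?_ hg'
    · intro h hh
      nlinarith [mul_nonneg hh hh]
    · intro h hh
      nlinarith [mul_nonneg hh hh]

theorem b6 (g : ℝ) : 0 ≤ SP20.Phi6 12 (321 / 100000) (-775 / 1000) g := by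
  refine (phi_b6 g).trans_eq ?_
  unfold SP20.Phi6 SP20.PHI SP20.VV PHI4
  ring

end Vale.Agent.P254.H721
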