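import Vale.Agent.P254.H876.Gauss

/-!
P254, (SP_0) line, one-variable functions of the model transport `N(0,1) → Exp(1)` (helper721).

`t g = -log (1 - Φ g)`, `L = t'` the Gaussian hazard, `mm = L - g`, `vv = 1 - L mm = 1 - L'`,
`r = t / L`, `r1 = r' = 1 + g r - t`, `r2 = r'' = r + g r' - L`.
-/

namespace Vale.Agent.P254.H721

open Real Set Filter Topology MeasureTheory
open Vale.Agent.P254.H876 (ph Ph lam m v)

/-- hazard of the standard Gaussian: `φ / (1 - Φ)` -/
noncomputable def L (g : ℝ) : ℝ := lam (-g)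

/-- `-log (1 - Φ)` -/
noncomputable def t (g : ℝ) : ℝ := -Real.log (Ph (-g) / √(2 * π))

/-- `L - g` -/
noncomputable def mm (g : ℝ) : ℝ := m (-g)

/-- `1 - L'` -/
noncomputable def vv (g : ℝ) : ℝ := v (-g)

/-- `t / t'` -/
noncomputable def r (g : ℝ) : ℝ := t g / L g

/-- `r'` -/
noncomputable def r1 (g : ℝ) : ℝ := 1 + g * r g - t g

/-- `r''` -/
noncomputable def r2 (g : ℝ) : ℝ := r g + g * r1 g - L g

theorem L_pos (g : ℝ) : 0 < L g := H876.lam_pos _
theorem mm_pos (g : ℝ) : 0 < mm g := H876.m_pos _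
theorem vv_pos (g : ℝ) : 0 < vv g := H876.v_pos _
theorem vv_lt_one (g : ℝ) : vv g < 1 := H876.v_lt_one _
theorem qv_pos (g : ℝ) : 0 < mm g ^ 2 - vv g := H876.qv_pos _

theorem mm_eq (g : ℝ) : mm g = L g - g := by
  unfold mm L
  rw [H876.m_eq]
  ring

theorem g_eq (g : ℝ) : g = L g - mm g := by rw [mm_eq]; ring

theorem vv_eq (g : ℝ) : vv g = 1 - L g * mm g := rfl

theorem L_mul_mm (g : ℝ) : L g * mm g = 1 - vv g := by rw [vv_eq]; ring

theorem gt_self (g : ℝ) : g < L g := by
  have := mm_pos g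
  rw [mm_eq] at this
  linarith

theorem neg_deriv {f : ℝ → ℝ} {f' : ℝ} {g : ℝ} (h : HasDerivAt f f' (-g)) :
    HasDerivAt (fun x => f (-x)) (-f') g := by
  refine HasDerivAt.congr_deriv (h.comp g (hasDerivAt_neg g)) ?_
  ring

theorem hasDerivAt_L (g : ℝ) : HasDerivAt L (L g * mm g) g := by
  have := neg_deriv (H876.hasDerivAt_lam (-g))
  refine this.congr_deriv ?_
  unfold L mm
  ring

theorem hasDerivAt_mm (g : ℝ) : HasDerivAt mm (-vv g) g :=
  neg_deriv (H876.hasDerivAt_m (-g))

theorem hasDerivAt_vv (g : ℝ) : HasDerivAt vv (-(L g * (mm g ^ 2 - vv g))) g :=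
  neg_deriv (H876.hasDerivAt_v (-g))

theorem sqrt_pos' : (0 : ℝ) < √(2 * π) := Real.sqrt_pos.2 (by positivity)

theorem hasDerivAt_t (g : ℝ) : HasDerivAt t (L g) g := by
  have h1 : HasDerivAt (fun x => Ph (-x) / √(2 * π)) (-ph (-g) / √(2 * π)) g :=
    (neg_deriv (H876.hasDerivAt_Ph (-g))).div_const _
  have h2 := (h1.log (by
    have := H876.Ph_pos (-g)
    have := sqrt_pos'
    positivity)).neg
  refine h2.congr_deriv ?_
  have hP := (H876.Ph_pos (-g)).ne'
  have hs := sqrt_pos'.ne'
  unfold L H876.lam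
  field_simp

theorem Ph_lt (c : ℝ) : Ph c < √(2 * π) := by
  have h1 : Ph c < Ph (c + 1) := H876.Ph_mono (by linarith)
  have h2 : Ph (c + 1) ≤ √(2 * π) :=
    H876.Ph_mono.monotone.ge_of_tendsto H876.tendsto_Ph_top _
  linarith

theorem t_pos (g : ℝ) : 0 < t g := by
  unfold t
  have hP := H876.Ph_pos (-g)
  have hs := sqrt_pos'
  have h := Ph_lt (-g)
  have : Real.log (Ph (-g) / √(2 * π)) < 0 :=
    Real.log_neg (by positivity) ((div_lt_one hs).2 h)
  linarith

theorem r_pos (g : ℝ) : 0 < r g := div_pos (t_pos g) (L_pos g)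

theorem r_mul_L (g : ℝ) : r g * L g = t g := by
  unfold r
  exact div_mul_cancel₀ _ (L_pos g).ne'

theorem r1_eq (g : ℝ) : r1 g = 1 - r g * mm g := by
  unfold r1
  rw [mm_eq, ← r_mul_L g]
  ring

theorem hasDerivAt_r (g : ℝ) : HasDerivAt r (r1 g) g := by
  have h := (hasDerivAt_t g).div (hasDerivAt_L g) (L_pos g).ne'
  refine h.congr_deriv ?_
  rw [r1_eq]
  have hL := (L_pos g).ne'
  have hr : r g = t g / L g := rfl
  rw [hr]
  field_simp

theorem hasDerivAt_r1 (g : ℝ) : HasDerivAt r1 (r2 g) g := by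
  have h := (((hasDerivAt_id g).mul (hasDerivAt_r g)).const_add 1).sub (hasDerivAt_t g)
  refine h.congr_deriv ?_
  unfold r2
  simp only [id]
  ring

theorem hasDerivAt_r2 (g : ℝ) :
    HasDerivAt r2 (2 * r1 g + g * r2 g - L g * mm g) g := by
  have h := ((hasDerivAt_r g).add ((hasDerivAt_id g).mul (hasDerivAt_r1 g))).sub (hasDerivAt_L g)
  refine h.congr_deriv ?_
  simp only [id]
  ring

/-- the model identity `L = r + g r' - r''` -/
theorem L_eq (g : ℝ) : L g = r g + g * r1 g - r2 g := by unfold r2; ring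

/-- the model identity `g r - r' = t - 1` -/
theorem g_r (g : ℝ) : g * r g - r1 g = t g - 1 := by unfold r1; ring

theorem r2_eq (g : ℝ) : r2 g = r g * (vv g + mm g ^ 2) - mm g := by
  unfold r2
  rw [r1_eq, vv_eq, mm_eq]
  ring

/-! ### limits at `-∞` -/

theorem tendsto_L_bot : Tendsto L atBot (𝓝 0) :=
  H876.tendsto_lam_top.comp tendsto_neg_atBot_atTop

theorem tendsto_t_bot : Tendsto t atBot (𝓝 0) := by
  have h1 : Tendsto (fun g => Ph (-g) / √(2 * π)) atBot (𝓝 (√(2 * π) / √(2 * π))) :=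
    (H876.tendsto_Ph_top.comp tendsto_neg_atBot_atTop).div_const _
  rw [div_self sqrt_pos'.ne'] at h1
  have h2 := ((Real.continuousAt_log one_ne_zero).tendsto.comp h1).neg
  rw [Real.log_one, neg_zero] at h2
  exact h2

theorem mm_ge {g : ℝ} : -g ≤ mm g := by
  rw [mm_eq]
  linarith [L_pos g]

theorem mm_anti : StrictAnti mm := by
  intro a b h
  exact H876.m_strictMono (by linarith)

theorem vv_anti : StrictAnti vv := by
  intro a b h
  exact H876.v_strictMono (by linarith)

theorem L_mono : StrictMono L := by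
  apply strictMono_of_hasDerivAt_pos hasDerivAt_L
  intro x
  exact mul_pos (L_pos x) (mm_pos x)

theorem t_mono : StrictMono t :=
  strictMono_of_hasDerivAt_pos hasDerivAt_t fun x => L_pos x

/-- a function with positive derivative on `ℝ` which tends to zero at `-∞` is positive -/
theorem pos_of_deriv_pos' {f f' : ℝ → ℝ} (h : ∀ x, HasDerivAt f (f' x) x)
    (hp : ∀ x, 0 < f' x) (h0 : Tendsto f atBot (𝓝 0)) (c : ℝ) : 0 < f c :=
  H876.pos_of_deriv_pos (fun x _ => h x) (fun x _ => hp x) h0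

/-- `L ψ → 0` at `-∞` if `ψ` is bounded near `-∞` -/
theorem tendsto_L_mul {ψ : ℝ → ℝ} {C : ℝ} (h : ∀ g ≤ -1, |ψ g| ≤ C) :
    Tendsto (fun g => L g * ψ g) atBot (𝓝 0) := by
  have hb : Tendsto (fun g => L g * C) atBot (𝓝 0) := by
    simpa using tendsto_L_bot.mul_const C
  refine squeeze_zero_norm' ?_ hb
  filter_upwards [eventually_le_atBot (-1 : ℝ)] with g hg
  rw [norm_mul, Real.norm_eq_abs, Real.norm_eq_abs, abs_of_pos (L_pos g)]
  exact mul_le_mul_of_nonneg_left (h g hg) (L_pos g).le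

theorem one_le_mm {g : ℝ} (hg : g ≤ -1) : 1 ≤ mm g := by
  have := @mm_ge g
  linarith

/-! ### the bounds for `r'` -/

theorem t_lt (g : ℝ) : t g < L g / mm g := by
  have h : ∀ x, HasDerivAt (fun x => L x / mm x - t x) (L x * vv x / mm x ^ 2) x := by
    intro x
    have h1 := ((hasDerivAt_L x).div (hasDerivAt_mm x) (mm_pos x).ne').sub (hasDerivAt_t x)
    refine h1.congr_deriv ?_
    have := (mm_pos x).ne'
    field_simp
    ring
  have h0 : Tendsto (fun x => L x / mm x - t x) atBot (𝓝 0) := by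
    have h1 : Tendsto (fun x => L x * (mm x)⁻¹) atBot (𝓝 0) := by
      refine tendsto_L_mul (C := 1) fun g hg => ?_
      rw [abs_of_pos (inv_pos.2 (mm_pos g))]
      exact inv_le_one_of_one_le₀ (one_le_mm hg)
    have := h1.sub tendsto_t_bot
    simpa [div_eq_mul_inv] using this
  have := pos_of_deriv_pos' h (fun x => by
    have := L_pos x; have := mm_pos x; have := vv_pos x; positivity) h0 g
  linarith

theorem lt_t (g : ℝ) : L g / (2 * mm g) < t g := by
  have h : ∀ x, HasDerivAt (fun x => t x - L x / (2 * mm x))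
      (L x * (mm x ^ 2 - vv x) / (2 * mm x ^ 2)) x := by
    intro x
    have h2 : HasDerivAt (fun x => 2 * mm x) (2 * (-vv x)) x := (hasDerivAt_mm x).const_mul 2
    have h1 := (hasDerivAt_t x).sub ((hasDerivAt_L x).div h2 (by
      have := (mm_pos x).ne'
      simpa using this))
    refine h1.congr_deriv ?_
    have := (mm_pos x).ne'
    field_simp
    ring
  have h0 : Tendsto (fun x => t x - L x / (2 * mm x)) atBot (𝓝 0) := by
    have h1 : Tendsto (fun x => L x * (2 * mm x)⁻¹) atBot (𝓝 0) := by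
      refine tendsto_L_mul (C := 1) fun g hg => ?_
      have h3 := one_le_mm hg
      rw [abs_of_pos (inv_pos.2 (by linarith))]
      exact inv_le_one_of_one_le₀ (by linarith)
    have := tendsto_t_bot.sub h1
    simpa [div_eq_mul_inv] using this
  have := pos_of_deriv_pos' h (fun x => by
    have := L_pos x; have := mm_pos x; have := qv_pos x; positivity) h0 g
  linarith

theorem r_mul_mm_lt (g : ℝ) : r g * mm g < 1 := by
  have h := t_lt g
  have hL := L_pos g
  have hm := mm_pos g
  rw [lt_div_iff₀ hm] at h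
  unfold r
  rw [div_mul_eq_mul_div, div_lt_one hL]
  exact h

theorem lt_r_mul_mm (g : ℝ) : 1 / 2 < r g * mm g := by
  have h := lt_t g
  have hL := L_pos g
  have hm := mm_pos g
  rw [div_lt_iff₀ (by positivity)] at h
  unfold r
  rw [div_mul_eq_mul_div, lt_div_iff₀ hL]
  linarith

theorem r1_pos (g : ℝ) : 0 < r1 g := by
  rw [r1_eq]
  linarith [r_mul_mm_lt g]

theorem r1_lt (g : ℝ) : r1 g < 1 / 2 := by
  rw [r1_eq]
  linarith [lt_r_mul_mm g]

theorem r_mono : StrictMono r := strictMono_of_hasDerivAt_pos hasDerivAt_r r1_pos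

/-! ### positivity of `r''` -/

/-- `m² < v (1 + v + m²)` -/
theorem EE_pos (c : ℝ) : 0 < v c * (1 + v c + m c ^ 2) - m c ^ 2 := by
  have h : ∀ x, HasDerivAt (fun x => (v x * (1 + v x + m x ^ 2) - m x ^ 2) * Ph x)
      (ph x * (m x ^ 2 - v x) * (m x ^ 2 + v x)) x := by
    intro x
    have hv := H876.hasDerivAt_v x
    have hm := H876.hasDerivAt_m x
    have h1 := (((hv.mul ((hv.const_add 1).add (hm.pow 2))).sub (hm.pow 2)).mul
      (H876.hasDerivAt_Ph x))
    have he : (fun x => (v x * (1 + v x + m x ^ 2) - m x ^ 2) * Ph x) =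
        ((v * ((fun x => 1 + v x) + m ^ 2) - m ^ 2) * Ph) := by
      funext y
      simp [Pi.mul_apply, Pi.add_apply, Pi.sub_apply, Pi.pow_apply]
    rw [he]
    refine h1.congr_deriv ?_
    have hlP := H876.lam_mul_Ph x
    have hlm : H876.lam x * m x = 1 - v x := by
      have : v x = 1 - H876.lam x * m x := rfl
      linarith
    simp only [Pi.mul_apply, Pi.add_apply, Pi.sub_apply, Pi.pow_apply]
    have hl1 : H876.lam x * (m x * v x) = (1 - v x) * v x := by
      rw [← hlm]; ring
    rw [← hlP]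
    push_cast
    linear_combination 2 * m x * v x * Ph x * hlm
  have h0 : Tendsto (fun x => (v x * (1 + v x + m x ^ 2) - m x ^ 2) * Ph x) atBot (𝓝 0) := by
    refine H876.tendsto_bdd_mul_Ph (C := 4) fun c hc => ?_
    have h1 := H876.m_lt_one hc
    have h2 := H876.m_pos c
    have h3 := H876.v_pos c
    have h4 := H876.v_lt_one c
    have h5 : m c ^ 2 ≤ 1 := by nlinarith
    rw [abs_le]
    constructor
    · nlinarith [mul_pos h3 h3, mul_nonneg h3.le (sq_nonneg (m c))]
    · nlinarith [mul_pos h3 h3, mul_nonneg h3.le (sq_nonneg (m c)),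
        mul_le_mul h4.le h5 (sq_nonneg _) zero_le_one]
  have hp := H876.pos_of_deriv_pos (c := c) (fun x _ => h x) (fun x _ => by
    have h1 := H876.ph_pos x
    have h2 := H876.qv_pos x
    have h3 := H876.v_pos x
    have h4 := sq_nonneg (m x)
    have h5 : 0 < m x ^ 2 + v x := by linarith
    positivity) h0
  exact (mul_pos_iff_of_pos_right (H876.Ph_pos c)).1 hp

theorem EE_pos' (g : ℝ) : 0 < vv g * (1 + vv g + mm g ^ 2) - mm g ^ 2 := EE_pos (-g)

theorem lt_t' (g : ℝ) : L g * (mm g / (vv g + mm g ^ 2)) < t g := by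
  have h : ∀ x, HasDerivAt (fun x => t x - L x * (mm x / (vv x + mm x ^ 2)))
      (L x * (vv x * (1 + vv x + mm x ^ 2) - mm x ^ 2) / (vv x + mm x ^ 2) ^ 2) x := by
    intro x
    have hv := vv_pos x
    have hd : vv x + mm x ^ 2 ≠ 0 := by positivity
    have h2 : HasDerivAt (fun x => mm x / (vv x + mm x ^ 2))
        ((-vv x * (vv x + mm x ^ 2) - mm x *
          (-(L x * (mm x ^ 2 - vv x)) + 2 * mm x * (-vv x))) / (vv x + mm x ^ 2) ^ 2) x := by
      have h3 := (hasDerivAt_mm x).div ((hasDerivAt_vv x).add ((hasDerivAt_mm x).pow 2)) hd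
      refine h3.congr_deriv ?_
      simp only [Pi.add_apply, Pi.pow_apply]
      push_cast
      ring
    have h1 := (hasDerivAt_t x).sub ((hasDerivAt_L x).mul h2)
    refine h1.congr_deriv ?_
    have hLm := L_mul_mm x
    field_simp
    linear_combination (L x * vv x - L x * mm x ^ 2) * hLm
  have h0 : Tendsto (fun x => t x - L x * (mm x / (vv x + mm x ^ 2))) atBot (𝓝 0) := by
    have h1 : Tendsto (fun x => L x * (mm x / (vv x + mm x ^ 2))) atBot (𝓝 0) := by
      refine tendsto_L_mul (C := 1) fun g hg => ?_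
      have h3 := one_le_mm hg
      have hv := vv_pos g
      rw [abs_of_pos (by positivity), div_le_one (by positivity)]
      nlinarith
    have := tendsto_t_bot.sub h1
    simpa using this
  have := pos_of_deriv_pos' h (fun x => by
    have h1 := L_pos x
    have h2 := vv_pos x
    have h3 := EE_pos' x
    have h4 : 0 < vv x + mm x ^ 2 := by positivity
    positivity) h0 g
  linarith

theorem r2_pos (g : ℝ) : 0 < r2 g := by
  rw [r2_eq]
  have h := lt_t' g
  have hL := L_pos g
  have hv := vv_pos g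
  have hd : 0 < vv g + mm g ^ 2 := by positivity
  have h2 : mm g / (vv g + mm g ^ 2) < r g := by
    unfold r
    rw [lt_div_iff₀ hL]
    linarith
  rw [div_lt_iff₀ hd] at h2
  linarith

theorem r1_mono : StrictMono r1 := strictMono_of_hasDerivAt_pos hasDerivAt_r1 r2_pos

end Vale.Agent.P254.H721
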