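import Vale.Agent.P254.H721.SPFun

/-!
P254, (SP_0) line, SP-CERT (helper721): trapezoid estimates for `mm' = -vv` and `r' = r1`.
-/

namespace Vale.Agent.P254.H721

open Real Set Filter Topology

theorem nonneg_of_right {F F' : ℝ → ℝ} (h : ∀ s, HasDerivAt F (F' s) s) (h0 : 0 ≤ F 0)
    (hp : ∀ s, 0 ≤ s → 0 ≤ F' s) {s : ℝ} (hs : 0 ≤ s) : 0 ≤ F s := by
  have hm : MonotoneOn F (Ici 0) := by
    apply monotoneOn_of_deriv_nonneg (convex_Ici 0)
    · exact fun x _ => (h x).continuousAt.continuousWithinAt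
    · exact fun x _ => (h x).differentiableAt.differentiableWithinAt
    · intro x hx
      rw [interior_Ici] at hx
      rw [(h x).deriv]
      exact hp x (le_of_lt hx)
  exact h0.trans (hm self_mem_Ici hs hs)

/-- trapezoid rule, lower bound -/
theorem trap_lower {f u u1 u2 : ℝ → ℝ} {C : ℝ} (hf : ∀ x, HasDerivAt f (u x) x)
    (hu : ∀ x, HasDerivAt u (u1 x) x) (hu1 : ∀ x, HasDerivAt u1 (u2 x) x)
    (hC : ∀ x, u2 x ≤ C) (a : ℝ) {s : ℝ} (hs : 0 ≤ s) :
    0 ≤ f (a + s) - f a - s / 2 * (u a + u (a + s)) + C * s ^ 3 / 12 := by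
  have sh : ∀ {w w' : ℝ → ℝ}, (∀ x, HasDerivAt w (w' x) x) → ∀ s, HasDerivAt (fun s => w (a + s)) (w' (a + s)) s := by
    intro w w' hw s
    have := (hw (a + s)).comp s ((hasDerivAt_id s).const_add a)
    rw [mul_one] at this
    exact this
  have hG : ∀ s, 0 ≤ s → 0 ≤ u (a + s) - 1 / 2 * (u a + u (a + s)) - s / 2 * u1 (a + s) + C * s ^ 2 / 4 := by
    intro s hs
    refine nonneg_of_right (F := fun s => u (a + s) - 1 / 2 * (u a + u (a + s)) - s / 2 * u1 (a + s) + C * s ^ 2 / 4)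
      (F' := fun s => s / 2 * (C - u2 (a + s))) ?_ ?_ ?_ hs
    · intro s
      have h1 := sh hu s
      have h2 := ((sh hu s).const_add (u a)).const_mul (1 / 2 : ℝ)
      have h3 := ((hasDerivAt_id s).div_const 2).mul (sh hu1 s)
      have h4 := (((hasDerivAt_id s).pow 2).const_mul C).div_const 4
      refine (((h1.sub h2).sub h3).add h4).congr_deriv ?_
      simp only [id]
      ring
    · simp only [add_zero]
      ring_nf
      rfl
    · intro s hs
      exact mul_nonneg (by linarith) (by linarith [hC (a + s)])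
  refine nonneg_of_right (F := fun s => f (a + s) - f a - s / 2 * (u a + u (a + s)) + C * s ^ 3 / 12)
    (F' := fun s => u (a + s) - 1 / 2 * (u a + u (a + s)) - s / 2 * u1 (a + s) + C * s ^ 2 / 4) ?_ ?_ hG hs
  · intro s
    have h1 := (sh hf s).sub_const (f a)
    have h3 := ((hasDerivAt_id s).div_const 2).mul ((sh hu s).const_add (u a))
    have h4 := (((hasDerivAt_id s).pow 3).const_mul C).div_const 12
    refine ((h1.sub h3).add h4).congr_deriv ?_
    simp only [id]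
    ring
  · simp only [add_zero]
    ring_nf
    rfl

/-- trapezoid rule, upper bound -/
theorem trap_upper {f u u1 u2 : ℝ → ℝ} {C : ℝ} (hf : ∀ x, HasDerivAt f (u x) x)
    (hu : ∀ x, HasDerivAt u (u1 x) x) (hu1 : ∀ x, HasDerivAt u1 (u2 x) x)
    (hC : ∀ x, -C ≤ u2 x) (a : ℝ) {s : ℝ} (hs : 0 ≤ s) :
    f (a + s) - f a - s / 2 * (u a + u (a + s)) ≤ C * s ^ 3 / 12 := by
  have h := trap_lower (f := fun x => -f x) (u := fun x => -u x) (u1 := fun x => -u1 x)
    (u2 := fun x => -u2 x) (C := C) (fun x => (hf x).neg) (fun x => (hu x).neg)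
    (fun x => (hu1 x).neg) (fun x => by linarith [hC x]) a hs
  nlinarith [h]

/-! ### bounds for `v''` and `r'''` -/

/-- ` (1 - v) m² < v (1 + v)` -/
theorem one_sub_v_mul (g : ℝ) : (1 - vv g) * mm g ^ 2 < vv g * (1 + vv g) := by
  have := EE_pos' g
  linarith [this]

theorem hasDerivAt_neg_vv (g : ℝ) : HasDerivAt (fun x => -vv x) (L g * (mm g ^ 2 - vv g)) g := by
  have := (hasDerivAt_vv g).neg
  refine this.congr_deriv ?_
  ring

/-- `-v''` -/
noncomputable def v2n (g : ℝ) : ℝ :=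
  L g * mm g * (mm g ^ 2 - vv g) - 2 * (L g * mm g) * vv g + L g ^ 2 * (mm g ^ 2 - vv g)

theorem hasDerivAt_neg_vv' (g : ℝ) :
    HasDerivAt (fun x => L x * (mm x ^ 2 - vv x)) (v2n g) g := by
  have h := (hasDerivAt_L g).mul (((hasDerivAt_mm g).pow 2).sub (hasDerivAt_vv g))
  refine h.congr_deriv ?_
  unfold v2n
  simp only [Pi.sub_apply, Pi.pow_apply]
  push_cast
  ring

theorem v2n_le (g : ℝ) : v2n g ≤ 3 := by
  have h1 := one_sub_v_mul g
  have hv := vv_pos g
  have hv1 := vv_lt_one g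
  have hL := L_pos g
  have hm := mm_pos g
  have hLm := L_mul_mm g
  have h2 : (L g) ^ 2 * (mm g ^ 2 - vv g) ≤ (1 - vv g) ^ 2 := by
    rw [← hLm]
    nlinarith [mul_pos (pow_pos hL 2) hv]
  unfold v2n
  rw [hLm]
  nlinarith

theorem le_v2n (g : ℝ) : -3 ≤ v2n g := by
  have hv := vv_pos g
  have hv1 := vv_lt_one g
  have hL := L_pos g
  have hLm := L_mul_mm g
  have hq := qv_pos g
  have h3 : 0 ≤ L g ^ 2 * (mm g ^ 2 - vv g) := by positivity
  unfold v2n
  rw [hLm]
  have h4 : 0 ≤ (1 - vv g) * (mm g ^ 2 - vv g) := mul_nonneg (by linarith) hq.le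
  nlinarith

/-- trapezoid for `mm` -/
theorem mm_trap (a : ℝ) {s : ℝ} (hs : 0 ≤ s) :
    |mm (a + s) - mm a + s / 2 * (vv a + vv (a + s))| ≤ 3 * s ^ 3 / 12 := by
  have h1 := trap_lower (f := mm) (u := fun x => -vv x) (C := 3) hasDerivAt_mm hasDerivAt_neg_vv
    hasDerivAt_neg_vv' v2n_le a hs
  have h2 := trap_upper (f := mm) (u := fun x => -vv x) (C := 3) hasDerivAt_mm hasDerivAt_neg_vv
    hasDerivAt_neg_vv' le_v2n a hs
  rw [abs_le]
  constructor <;> nlinarith

/-- `r'''` -/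
noncomputable def r3 (g : ℝ) : ℝ := 2 * r1 g + g * r2 g - L g * mm g

theorem r3_eq (g : ℝ) : r3 g = r1 g * (3 * vv g + mm g ^ 2) - t g * (mm g ^ 2 - vv g) - vv g := by
  unfold r3
  rw [r2_eq, ← r_mul_L g]
  have h1 := r1_eq g
  have h2 := g_eq g
  have h3 : L g * mm g = 1 - vv g := L_mul_mm g
  rw [h1]
  linear_combination (2 * (r g * mm g) - 2) * h3 + (r g * (vv g + mm g ^ 2) - mm g) * h2

theorem r1_mul_sq_lt (g : ℝ) : r1 g * mm g ^ 2 < vv g * (1 - r1 g) := by
  have h := r2_pos g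
  rw [r2_eq] at h
  have hm := mm_pos g
  have h1 := r1_eq g
  have h2 : 0 < mm g * (r g * (vv g + mm g ^ 2) - mm g) := mul_pos hm h
  rw [h1]
  nlinarith

theorem t_mul_q_lt (g : ℝ) : t g * (mm g ^ 2 - vv g) < 1 - vv g := by
  have h := r_mul_mm_lt g
  have hv := vv_pos g
  have hm := mm_pos g
  have hL := L_pos g
  have hr := r_pos g
  have hLm := L_mul_mm g
  rw [← r_mul_L, ← hLm]
  have h1 : r g * mm g * (L g * mm g) < 1 * (L g * mm g) := by
    apply mul_lt_mul_of_pos_right h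
    positivity
  nlinarith [mul_pos (mul_pos hr hL) hv]

theorem r3_le (g : ℝ) : r3 g ≤ 3 / 2 := by
  rw [r3_eq]
  have h1 := r1_mul_sq_lt g
  have h2 := r1_pos g
  have h3 := r1_lt g
  have hv := vv_pos g
  have hv1 := vv_lt_one g
  have hq := mul_pos (t_pos g) (qv_pos g)
  nlinarith

theorem le_r3 (g : ℝ) : -(3 / 2) ≤ r3 g := by
  rw [r3_eq]
  have h2 := r1_pos g
  have hv := vv_pos g
  have h4 := t_mul_q_lt g
  have hm := mm_pos g
  have : 0 ≤ r1 g * (3 * vv g + mm g ^ 2) := by positivity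
  linarith

/-- trapezoid for `r` -/
theorem r_trap (a : ℝ) {s : ℝ} (hs : 0 ≤ s) :
    |r (a + s) - r a - s / 2 * (r1 a + r1 (a + s))| ≤ 3 / 2 * s ^ 3 / 12 := by
  have h1 := trap_lower (f := r) (u := r1) (C := 3 / 2) hasDerivAt_r hasDerivAt_r1
    hasDerivAt_r2 r3_le a hs
  have h2 := trap_upper (f := r) (u := r1) (C := 3 / 2) hasDerivAt_r hasDerivAt_r1
    hasDerivAt_r2 le_r3 a hs
  rw [abs_le]
  constructor <;> linarith

end Vale.Agent.P254.H721
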