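import Vale.Agent.P254.H721.Env

/-!
P254, (SP_0) line, SP-CERT (helper721): trapezoid estimates with the constants valid on `[-1, ∞)`,
`|v''| ≤ 3/25`, `|r'''| ≤ 1/40`.
-/

namespace Vale.Agent.P254.H721

open Real Set Filter Topology

theorem nonneg_of_right2 {F F' : ℝ → ℝ} (h : ∀ s, HasDerivAt F (F' s) s) (h0 : 0 ≤ F 0)
    (hp : ∀ s, 0 ≤ s → 0 ≤ F' s) {s : ℝ} (hs : 0 ≤ s) : 0 ≤ F s :=
  nonneg_of_right h h0 hp hs

/-- trapezoid rule, lower bound, constant on `[a, ∞)` only -/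
theorem trap_lower2 {f u u1 u2 : ℝ → ℝ} {C : ℝ} (hf : ∀ x, HasDerivAt f (u x) x)
    (hu : ∀ x, HasDerivAt u (u1 x) x) (hu1 : ∀ x, HasDerivAt u1 (u2 x) x)
    (a : ℝ) (hC : ∀ x, a ≤ x → u2 x ≤ C) {s : ℝ} (hs : 0 ≤ s) :
    0 ≤ f (a + s) - f a - s / 2 * (u a + u (a + s)) + C * s ^ 3 / 12 := by
  have sh : ∀ {w w' : ℝ → ℝ}, (∀ x, HasDerivAt w (w' x) x) → ∀ s, HasDerivAt (fun s => w (a + s)) (w' (a + s)) s := by
    intro w w' hw s
    have := (hw (a + s)).comp s ((hasDerivAt_id s).const_add a)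
    rw [mul_one] at this
    exact this
  have hG : ∀ s, 0 ≤ s → 0 ≤ u (a + s) - 1 / 2 * (u a + u (a + s)) - s / 2 * u1 (a + s) + C * s ^ 2 / 4 := by
    intro s hs
    refine nonneg_of_right (F := fun s => u (a + s) - 1 / 2 * (u a + u (a + s)) - s / 2 * u1 (a + s) + C * s ^ 2 / 4)
      (F' := fun s => s / 2 * (C - u2 (a + s))) ?_ ?_ ?_ hs
    · intro s
      have h1 := sh hu s
      have h2 := ((sh hu s).const_add (u a)).const_mul (1 / 2 : ℝ)
      have h3 := ((hasDerivAt_id s).div_const 2).mul (sh hu1 s)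
      have h4 := (((hasDerivAt_id s).pow 2).const_mul C).div_const 4
      refine (((h1.sub h2).sub h3).add h4).congr_deriv ?_
      simp only [id]
      ring
    · simp only [add_zero]
      ring_nf
      rfl
    · intro s hs
      exact mul_nonneg (by linarith) (by linarith [hC (a + s) (by linarith)])
  refine nonneg_of_right (F := fun s => f (a + s) - f a - s / 2 * (u a + u (a + s)) + C * s ^ 3 / 12)
    (F' := fun s => u (a + s) - 1 / 2 * (u a + u (a + s)) - s / 2 * u1 (a + s) + C * s ^ 2 / 4) ?_ ?_ hG hs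
  · intro s
    have h1 := (sh hf s).sub_const (f a)
    have h3 := ((hasDerivAt_id s).div_const 2).mul ((sh hu s).const_add (u a))
    have h4 := (((hasDerivAt_id s).pow 3).const_mul C).div_const 12
    refine ((h1.sub h3).add h4).congr_deriv ?_
    simp only [id]
    ring
  · simp only [add_zero]
    ring_nf
    rfl

/-- trapezoid rule, upper bound, constant on `[a, ∞)` only -/
theorem trap_upper2 {f u u1 u2 : ℝ → ℝ} {C : ℝ} (hf : ∀ x, HasDerivAt f (u x) x)
    (hu : ∀ x, HasDerivAt u (u1 x) x) (hu1 : ∀ x, HasDerivAt u1 (u2 x) x)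
    (a : ℝ) (hC : ∀ x, a ≤ x → -C ≤ u2 x) {s : ℝ} (hs : 0 ≤ s) :
    f (a + s) - f a - s / 2 * (u a + u (a + s)) ≤ C * s ^ 3 / 12 := by
  have h := trap_lower2 (f := fun x => -f x) (u := fun x => -u x) (u1 := fun x => -u1 x)
    (u2 := fun x => -u2 x) (C := C) (fun x => (hf x).neg) (fun x => (hu x).neg)
    (fun x => (hu1 x).neg) a (fun x hx => by linarith [hC x hx]) hs
  nlinarith [h]

/-! ### the constants -/

theorem mm_lt_inv {g : ℝ} (hg : 0 < g) : g * mm g < 1 := by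
  have h1 := L_mul_mm g
  have h2 := vv_pos g
  have h3 := mm_pos g
  have h4 := g_eq g
  nlinarith [pow_pos h3 2]

theorem vv_lt_sq (g : ℝ) : vv g < mm g ^ 2 := by linarith [qv_pos g]

/-- `(m² - v)(1 - v) < 2 v²` -/
theorem b_mul_lt (g : ℝ) : (mm g ^ 2 - vv g) * (1 - vv g) < 2 * vv g ^ 2 := by
  have h := one_sub_v_mul g
  nlinarith

theorem v2n_le' (g : ℝ) : v2n g ≤ 2 * vv g ^ 2 := by
  have h1 := one_sub_v_mul g
  have hv := vv_pos g
  have hv1 := vv_lt_one g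
  have hL := L_pos g
  have hm := mm_pos g
  have hLm := L_mul_mm g
  have hb := b_mul_lt g
  have hq := qv_pos g
  -- `m² L² b ≤ 2 v² (1 - v)`, hence `L² b ≤ 2 v (1 - v)`
  have h2 : L g ^ 2 * (mm g ^ 2 - vv g) ≤ 2 * vv g * (1 - vv g) := by
    have h3 : vv g * (L g ^ 2 * (mm g ^ 2 - vv g)) ≤ mm g ^ 2 * (L g ^ 2 * (mm g ^ 2 - vv g)) :=
      mul_le_mul_of_nonneg_right (vv_lt_sq g).le (mul_nonneg (sq_nonneg _) hq.le)
    have h4 : mm g ^ 2 * (L g ^ 2 * (mm g ^ 2 - vv g)) = (1 - vv g) * ((mm g ^ 2 - vv g) * (1 - vv g)) := by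
      rw [show mm g ^ 2 * (L g ^ 2 * (mm g ^ 2 - vv g)) = (L g * mm g) ^ 2 * (mm g ^ 2 - vv g) by ring, hLm]
      ring
    have h5 : (1 - vv g) * ((mm g ^ 2 - vv g) * (1 - vv g)) ≤ (1 - vv g) * (2 * vv g ^ 2) :=
      mul_le_mul_of_nonneg_left hb.le (by linarith)
    have h6 : vv g * (L g ^ 2 * (mm g ^ 2 - vv g)) ≤ vv g * (2 * vv g * (1 - vv g)) := by
      calc _ ≤ _ := h3
        _ = _ := h4
        _ ≤ _ := h5
        _ = _ := by ring
    exact le_of_mul_le_mul_left h6 hv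
  unfold v2n
  rw [hLm]
  nlinarith

theorem le_v2n' (g : ℝ) : -(2 * vv g) ≤ v2n g := by
  have hv := vv_pos g
  have hv1 := vv_lt_one g
  have hL := L_pos g
  have hLm := L_mul_mm g
  have hq := qv_pos g
  have h3 : 0 ≤ L g ^ 2 * (mm g ^ 2 - vv g) := by positivity
  unfold v2n
  rw [hLm]
  have h4 : 0 ≤ (1 - vv g) * (mm g ^ 2 - vv g) := mul_nonneg (by linarith) hq.le
  nlinarith [mul_pos hv hv]

theorem vv_9 {g : ℝ} (hg : 9 ≤ g) : mm g ^ 2 ≤ 1 / 81 := by
  have h1 := mm_lt_inv (g := g) (by linarith)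
  have h2 := mm_pos g
  have h3 : mm g ≤ 1 / 9 := by nlinarith
  nlinarith

namespace Cert

def eV2n : Pe := eL * .m * (.m * .m - eV) - .c 2 1 * (eL * .m) * eV + eL * eL * (.m * .m - eV)
def eR3 : Pe := .c 2 1 * eR1 + .x * eR2 - eL * .m

theorem ev_eV2n (ρ : ℕ → ℝ) (g : ℝ) : eV2n.ev ρ g (mm g) (r g) = v2n g := by
  simp only [eV2n, ev_add, ev_mul, ev_sub, ev_m, ev_c, ev_eL, ev_eV, v2n]
  push_cast
  ring

theorem ev_eR3 (ρ : ℕ → ℝ) (g : ℝ) : eR3.ev ρ g (mm g) (r g) = r3 g := by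
  simp only [eR3, ev_add, ev_mul, ev_sub, ev_m, ev_x, ev_c, ev_eL, ev_eR1, ev_eR2, r3]
  push_cast
  ring

end Cert

theorem v2n_le2 {g : ℝ} (hg : -1 ≤ g) : v2n g ≤ 3 / 25 := by
  rcases le_total g 9 with h9 | h9
  · have h := Cert.cert2 (e := .c 3 25 - Cert.eV2n)
      Cert.envOK_nil 320 [(8, 39), (4, 82)] (by decide) (by decide +kernel)
      (x := g) (by norm_num; linarith) (by norm_num [Cert.tot]; linarith)
    simp only [Cert.ev_sub, Cert.ev_c, Cert.ev_eV2n] at h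
    push_cast at h
    linarith
  · have h1 := v2n_le' g
    have h2 := vv_9 h9
    have h3 := vv_lt_sq g
    have h4 := vv_pos g
    nlinarith

theorem le_v2n2 {g : ℝ} (hg : -1 ≤ g) : -(3 / 25) ≤ v2n g := by
  rcases le_total g 9 with h9 | h9
  · have h := Cert.cert2 (e := .c 3 25 + Cert.eV2n)
      Cert.envOK_nil 320 [(8, 1), (4, 29), (8, 20), (4, 89)] (by decide) (by decide +kernel)
      (x := g) (by norm_num; linarith) (by norm_num [Cert.tot]; linarith)
    simp only [Cert.ev_add, Cert.ev_c, Cert.ev_eV2n] at h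
    push_cast at h
    linarith
  · have h1 := le_v2n' g
    have h2 := vv_9 h9
    have h3 := vv_lt_sq g
    have h4 := vv_pos g
    nlinarith

theorem r3_le2 {g : ℝ} (hg : -1 ≤ g) : r3 g ≤ 1 / 40 := by
  rcases le_total g 9 with h9 | h9
  · have h := Cert.cert2 (e := .c 1 40 - Cert.eR3)
      Cert.envOK_nil 320 [(4, 4), (8, 23), (4, 67), (2, 86)] (by decide) (by decide +kernel)
      (x := g) (by norm_num; linarith) (by norm_num [Cert.tot]; linarith)
    simp only [Cert.ev_sub, Cert.ev_c, Cert.ev_eR3] at h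
    push_cast at h
    linarith
  · have h1 := r3_eq g
    have h2 := vv_9 h9
    have h3 := vv_lt_sq g
    have h4 := vv_pos g
    have h5 := r1_lt g
    have h6 := mul_pos (t_pos g) (qv_pos g)
    have h7 := r1_pos g
    nlinarith

theorem le_r3_2 {g : ℝ} (hg : -1 ≤ g) : -(1 / 40) ≤ r3 g := by
  rcases le_total g 9 with h9 | h9
  · have h := Cert.cert2 (e := .c 1 40 + Cert.eR3)
      Cert.envOK_nil 320 [(4, 14), (2, 28), (4, 81), (2, 102)] (by decide) (by decide +kernel)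
      (x := g) (by norm_num; linarith) (by norm_num [Cert.tot]; linarith)
    simp only [Cert.ev_add, Cert.ev_c, Cert.ev_eR3] at h
    push_cast at h
    linarith
  · -- `t b m² ≤ (r m)(L m) b ≤ (r m) 2 v²`
    have h1 := r3_eq g
    have h2 := vv_9 h9
    have h3 := vv_lt_sq g
    have h4 := vv_pos g
    have h5 := r1_right h9
    have h6 := b_mul_lt g
    have h7 := r1_eq g
    have h8 := L_mul_mm g
    have hm := mm_pos g
    have hr := r_pos g
    have hq := qv_pos g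
    have e1 : mm g ^ 2 * (t g * (mm g ^ 2 - vv g)) = (1 - r1 g) * ((mm g ^ 2 - vv g) * (1 - vv g)) := by
      rw [← r_mul_L, ← h8, h7]
      ring
    have h9' : mm g ^ 2 * (t g * (mm g ^ 2 - vv g)) ≤ mm g ^ 2 * (2 * (1 - r1 g) * vv g) := by
      rw [e1]
      have k1 : (1 - r1 g) * ((mm g ^ 2 - vv g) * (1 - vv g)) ≤ (1 - r1 g) * (2 * vv g ^ 2) :=
        mul_le_mul_of_nonneg_left h6.le (by linarith [r1_lt g])
      have k2 : 2 * (1 - r1 g) * vv g * vv g ≤ 2 * (1 - r1 g) * vv g * mm g ^ 2 :=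
        mul_le_mul_of_nonneg_left h3.le (mul_nonneg (mul_nonneg (by norm_num) (by linarith [r1_lt g])) h4.le)
      nlinarith
    have h10 := le_of_mul_le_mul_left h9' (pow_pos hm 2)
    nlinarith

/-- trapezoid for `mm`, `a ≥ -1` -/
theorem mm_trap2 {a : ℝ} (ha : -1 ≤ a) {s : ℝ} (hs : 0 ≤ s) :
    |mm (a + s) - mm a + s / 2 * (vv a + vv (a + s))| ≤ 3 / 25 * s ^ 3 / 12 := by
  have h1 := trap_lower2 (f := mm) (u := fun x => -vv x) (C := 3 / 25) hasDerivAt_mm hasDerivAt_neg_vv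
    hasDerivAt_neg_vv' a (fun x hx => v2n_le2 (ha.trans hx)) hs
  have h2 := trap_upper2 (f := mm) (u := fun x => -vv x) (C := 3 / 25) hasDerivAt_mm hasDerivAt_neg_vv
    hasDerivAt_neg_vv' a (fun x hx => le_v2n2 (ha.trans hx)) hs
  rw [abs_le]
  constructor <;> nlinarith

/-- trapezoid for `r`, `a ≥ -1` -/
theorem r_trap2 {a : ℝ} (ha : -1 ≤ a) {s : ℝ} (hs : 0 ≤ s) :
    |r (a + s) - r a - s / 2 * (r1 a + r1 (a + s))| ≤ 1 / 40 * s ^ 3 / 12 := by
  have h1 := trap_lower2 (f := r) (u := r1) (C := 1 / 40) hasDerivAt_r hasDerivAt_r1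
    hasDerivAt_r2 a (fun x hx => r3_le2 (ha.trans hx)) hs
  have h2 := trap_upper2 (f := r) (u := r1) (C := 1 / 40) hasDerivAt_r hasDerivAt_r1
    hasDerivAt_r2 a (fun x hx => le_r3_2 (ha.trans hx)) hs
  rw [abs_le]
  constructor <;> linarith

end Vale.Agent.P254.H721
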